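import Vale.Agent.P315.H587.Us

/-!
# P315, Part A (helper728's form), STEP 9: units above the cap
-/

open Finset

namespace Vale.Agent.P315.Acc

variable {X : Type} [Fintype X] [Nonempty X]

namespace Sys

variable (S : Sys X)

/-- blow-up lemma one full group below the top. -/
theorem blowup_unit {c : ℝ} (hc : 0 ≤ c) (o s : ℕ) :
    ∑ a ∈ range (S.na s), S.E (fun x => ∑ k ∈ range (S.nb s), ind (S.nuT o s a x k ≤ c) *
        max 0 (S.nuU o s a x k - c)) ≤
      1 + ∑ a ∈ range (S.na s), S.E (fun x => ∑ k ∈ range (S.nb s),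
        S.G s a x (S.b1 o s k)) := by
  have h := S.blowup hc o s (2 ^ s) le_rfl
  have e : ∀ a, (a + 1) * 2 ^ s - 2 ^ s = a * 2 ^ s := by
    intro a
    have : (a + 1) * 2 ^ s = a * 2 ^ s + 2 ^ s := by ring
    omega
  simpa only [e, nuU] using h

end Sys

namespace Mach

variable {S : Sys X} (R : Mach S)

/-- **STEP 9** (row CAP): the mass of the units above `C7 m` in blocks `P` whose class is in `Ls` and
in which the top has mass at most `2 m`. -/
theorem cap_le {C7 : ℝ} (hC7 : 8 ≤ C7) (o s : ℕ) (Ls : Finset ℕ) (P : ℕ → X → ℕ → Prop)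
    (hP : ∀ a x k, P a x k → ∃ l ∈ Ls, R.cls o s a l x k ∧ S.nuT o s a x k ≤ 2 * R.m o s a x k) :
    ∑ a ∈ range (S.na s), S.E (fun x => ∑ k ∈ range (S.nb s), ind (P a x k) *
        (S.nuU o s a x k * ind (¬ S.nuU o s a x k ≤ C7 * R.m o s a x k))) ≤
      2 * Ls.card * (1 + ∑ a ∈ range (S.na s), S.E (fun x => ∑ k ∈ range (S.nb s),
        S.G s a x (S.b1 o s k))) := by
  have h1 : ∑ a ∈ range (S.na s), S.E (fun x => ∑ k ∈ range (S.nb s), ind (P a x k) *
        (S.nuU o s a x k * ind (¬ S.nuU o s a x k ≤ C7 * R.m o s a x k))) ≤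
      ∑ l ∈ Ls, 2 * ∑ a ∈ range (S.na s), S.E (fun x => ∑ k ∈ range (S.nb s),
        ind (S.nuT o s a x k ≤ 2 * (1 / 2 : ℝ) ^ l) *
          max 0 (S.nuU o s a x k - 2 * (1 / 2 : ℝ) ^ l)) := by
    rw [← Finset.mul_sum, Finset.sum_comm, Finset.mul_sum]
    refine Finset.sum_le_sum fun a _ => ?_
    rw [← S.E_sum, ← S.E_mul_left]
    refine S.E_mono fun x => ?_
    rw [Finset.sum_comm, Finset.mul_sum]
    refine Finset.sum_le_sum fun k _ => ?_
    have hnn : ∀ l : ℕ, 0 ≤ ind (S.nuT o s a x k ≤ 2 * (1 / 2 : ℝ) ^ l) *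
          max 0 (S.nuU o s a x k - 2 * (1 / 2 : ℝ) ^ l) :=
      fun l => mul_nonneg (ind_nonneg _) (le_max_left _ _)
    have hsum : 0 ≤ 2 * ∑ l ∈ Ls, ind (S.nuT o s a x k ≤ 2 * (1 / 2 : ℝ) ^ l) *
          max 0 (S.nuU o s a x k - 2 * (1 / 2 : ℝ) ^ l) :=
      mul_nonneg (by norm_num) (Finset.sum_nonneg fun l _ => hnn l)
    by_cases hp : P a x k
    · obtain ⟨l, hl, hcls, hT⟩ := hP a x k hp
      by_cases hu : S.nuU o s a x k ≤ C7 * R.m o s a x k
      · rw [ind_false (not_not.2 hu), mul_zero, mul_zero]; exact hsum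
      · rw [ind_true hp, ind_true hu, one_mul, mul_one]
        have hpow : (0 : ℝ) < (1 / 2 : ℝ) ^ l := by positivity
        have h2 : (1 / 2 : ℝ) ^ (l + 1) = (1 / 2 : ℝ) ^ l / 2 := by rw [pow_succ]; ring
        have h3 := hcls.1
        have h4 := hcls.2
        rw [h2] at h3
        have hm : 0 ≤ R.m o s a x k := by linarith
        have h5 : 8 * R.m o s a x k ≤ C7 * R.m o s a x k := mul_le_mul_of_nonneg_right hC7 hm
        have h6 : S.nuT o s a x k ≤ 2 * (1 / 2 : ℝ) ^ l := by linarith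
        have h7 : S.nuU o s a x k ≤ 2 * (ind (S.nuT o s a x k ≤ 2 * (1 / 2 : ℝ) ^ l) *
          max 0 (S.nuU o s a x k - 2 * (1 / 2 : ℝ) ^ l)) := by
          rw [ind_true h6, one_mul]
          have := le_max_right 0 (S.nuU o s a x k - 2 * (1 / 2 : ℝ) ^ l)
          linarith
        refine h7.trans (mul_le_mul_of_nonneg_left ?_ (by norm_num))
        exact Finset.single_le_sum (f := fun l => ind (S.nuT o s a x k ≤ 2 * (1 / 2 : ℝ) ^ l) *
          max 0 (S.nuU o s a x k - 2 * (1 / 2 : ℝ) ^ l)) (fun l _ => hnn l) hl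
    · rw [ind_false hp, zero_mul]; exact hsum
  refine h1.trans ?_
  have h2 : ∀ l ∈ Ls, 2 * ∑ a ∈ range (S.na s), S.E (fun x => ∑ k ∈ range (S.nb s),
        ind (S.nuT o s a x k ≤ 2 * (1 / 2 : ℝ) ^ l) *
          max 0 (S.nuU o s a x k - 2 * (1 / 2 : ℝ) ^ l)) ≤
      2 * (1 + ∑ a ∈ range (S.na s), S.E (fun x => ∑ k ∈ range (S.nb s),
        S.G s a x (S.b1 o s k))) := fun l _ =>
    mul_le_mul_of_nonneg_left (S.blowup_unit (by positivity) o s) (by norm_num)
  refine (Finset.sum_le_sum h2).trans ?_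
  rw [Finset.sum_const, nsmul_eq_mul]
  exact le_of_eq (by ring)

end Mach

end Vale.Agent.P315.Acc
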