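import Vale.Agent.P315.H679.AccF1

/-!
# P315, Part A: the blow-up lemma (F3') of helper728's accounting
-/

open Finset

namespace Vale.Agent.P315.Acc

variable {X : Type} [Fintype X] [Nonempty X]

namespace Sys

variable (S : Sys X)

/-! ## basic facts (the others are in H679/AccF1) -/

theorem meas_le {i j : ℕ} (hij : i ≤ j) {x y : X} (h : S.q i x = S.q i y) : S.e j x = S.e j y :=
  S.meas _ _ _ (S.nestLe hij x y h)

theorem E_le_const {f : X → ℝ} {c : ℝ} (h : ∀ x, f x ≤ c) : S.E f ≤ c := by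
  have := S.E_mono h
  rwa [S.E_const] at this

theorem av_mono' {j : ℕ} {f g : X → ℝ} (h : ∀ x, f x ≤ g x) (x : X) : S.av j f x ≤ S.av j g x :=
  avg_mono S.hw x fun y _ => h y

theorem av_nonneg' {j : ℕ} {f : X → ℝ} (h : ∀ x, 0 ≤ f x) (x : X) : 0 ≤ S.av j f x :=
  avg_nonneg S.hw x fun y _ => h y

theorem av_const' (j : ℕ) (c : ℝ) (x : X) : S.av j (fun _ => c) x = c :=
  avg_const S.hw x fun _ _ => rfl

/-- the average of a node's curve over its own level is itself -/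
theorem av_e {i j : ℕ} (hij : i ≤ j) (x : X) (b : ℕ) :
    S.av i (fun y => S.e j y b) x = S.e j x b :=
  avg_const S.hw x fun y h => by rw [S.meas_le hij h]

/-- `EE (h · av f) = EE (h · f)` for a measurable factor. -/
theorem E_pull' (j : ℕ) {f h : X → ℝ} (hh : ∀ x y, S.q j x = S.q j y → h x = h y) :
    S.E (fun x => h x * S.av j f x) = S.E (fun x => h x * f x) :=
  EE_pull S.hw j fun x y hxy => hh y x hxy

theorem av_e_anti {i l j : ℕ} (hil : i ≤ l) (hlj : l ≤ j) (hj : j ≤ S.n) (x : X) (b : ℕ) :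
    S.av j (fun y => S.e l y b) x ≤ S.av j (fun y => S.e i y b) x := by
  have h2 : S.av j (fun y => S.e l y b) x ≤ S.av j (S.av l (fun y => S.e i y b)) x :=
    S.av_mono' (fun y => S.e_le_av hil (hlj.trans hj) y b) x
  rwa [S.av_av hlj] at h2

theorem E_e_anti {i j : ℕ} (hij : i ≤ j) (hj : j ≤ S.n) (b : ℕ) :
    S.E (fun x => S.e j x b) ≤ S.E (fun x => S.e i x b) := by
  have := S.E_mono (fun x => S.e_le_av hij hj x b)
  rwa [S.E_av] at this

theorem b0_succ (o s k : ℕ) : S.b0 o s (k + 1) = S.b1 o s k := rfl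

theorem sum_nu (j : ℕ) (x : X) (o s N : ℕ) :
    ∑ k ∈ range N, S.nu j x (S.b0 o s k) (S.b1 o s k) = S.nu j x (S.b0 o s 0) (S.b0 o s N) := by
  induction N with
  | zero => simp [nu]
  | succ N ih => rw [Finset.sum_range_succ, ih, ← b0_succ]; unfold nu; ring

theorem sum_nu_le_one (j : ℕ) (x : X) (o s N : ℕ) :
    ∑ k ∈ range N, S.nu j x (S.b0 o s k) (S.b1 o s k) ≤ 1 := by
  rw [sum_nu]; exact S.nu_le_one _ _ _ _

theorem top_le' {s a : ℕ} (ha : a < S.na s) : (a + 1) * 2 ^ s ≤ S.n := by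
  have : a + 1 ≤ S.n / 2 ^ s := ha
  exact (Nat.mul_le_mul_right _ this).trans (Nat.div_mul_le_self _ _)

theorem G_nonneg' {s a : ℕ} (ha : a < S.na s) (x : X) (b : ℕ) : 0 ≤ S.G s a x b :=
  S.G_nonneg (S.top_le' ha) x b

/-- (F1), upper form: the average over the descendants at any level of the group. -/
theorem av_nu_le' {s a l : ℕ} (ha : a < S.na s) (h1 : a * 2 ^ s ≤ l) (h2 : l ≤ (a + 1) * 2 ^ s)
    (x : X) {b b' : ℕ} :
    S.av ((a + 1) * 2 ^ s) (fun y => S.nu l y b b') x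
      ≤ S.nu ((a + 1) * 2 ^ s) x b b' + S.G s a x b := by
  unfold nu
  rw [S.av_sub]
  have h3 := S.av_e_anti h1 h2 (S.top_le' ha) x b
  have h4 := S.e_le_av h2 (S.top_le' ha) x b'
  unfold G V
  linarith

/-- (F1), lower form. -/
theorem le_av_nu' {s a l : ℕ} (ha : a < S.na s) (h1 : a * 2 ^ s ≤ l) (h2 : l ≤ (a + 1) * 2 ^ s)
    (x : X) {b b' : ℕ} :
    S.nu ((a + 1) * 2 ^ s) x b b' ≤
      S.av ((a + 1) * 2 ^ s) (fun y => S.nu l y b b') x + S.G s a x b' := by
  unfold nu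
  rw [S.av_sub]
  have h3 := S.av_e_anti h1 h2 (S.top_le' ha) x b'
  have h4 := S.e_le_av h2 (S.top_le' ha) x b
  unfold G V
  linarith

/-! ## the blow-up lemma -/

/-- Jensen for `max 0 (· - c)` along the levels. -/
theorem pos_part_av {i j : ℕ} (hij : i ≤ j) (hj : j ≤ S.n) (c : ℝ) (x : X) {b b' : ℕ} :
    max 0 (S.nu j x b b' - c) ≤ S.av j (fun y => max 0 (S.nu i y b b' - c)) x
      + (S.av j (fun y => S.e i y b') x - S.e j x b') := by
  have hG : 0 ≤ S.av j (fun y => S.e i y b') x - S.e j x b' :=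
    sub_nonneg.2 (S.e_le_av hij hj x b')
  have h0 : 0 ≤ S.av j (fun y => max 0 (S.nu i y b b' - c)) x :=
    S.av_nonneg' (fun y => le_max_left _ _) x
  have h1 : S.av j (fun y => S.nu i y b b' - c) x
      ≤ S.av j (fun y => max 0 (S.nu i y b b' - c)) x :=
    S.av_mono' (fun y => le_max_right _ _) x
  have h2 : S.av j (fun y => S.nu i y b b' - c) x
      = S.av j (fun y => S.e i y b) x - S.av j (fun y => S.e i y b') x - c := by
    rw [S.av_sub, S.av_const']
    unfold nu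
    rw [S.av_sub]
  have h3 := S.e_le_av hij hj x b
  refine max_le (by linarith) ?_
  unfold nu at *
  linarith

/-- total excess over `c` of the level `j` in the blocks of scale `t`. -/
noncomputable def Qx (c : ℝ) (o t j : ℕ) : ℝ :=
  S.E (fun x => ∑ k ∈ range (S.nb t), max 0 (S.nu j x (S.b0 o t k) (S.b1 o t k) - c))

theorem Qx_nonneg (c : ℝ) (o t j : ℕ) : 0 ≤ S.Qx c o t j :=
  S.E_nonneg fun _ => Finset.sum_nonneg fun _ _ => le_max_left _ _

theorem Qx_le_one {c : ℝ} (hc : 0 ≤ c) (o t j : ℕ) : S.Qx c o t j ≤ 1 := by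
  refine S.E_le_const fun x => ?_
  refine le_trans (Finset.sum_le_sum fun k _ => ?_) (S.sum_nu_le_one j x o t (S.nb t))
  have := S.nu_nonneg j x (S.b0_le_b1 o t k)
  exact max_le this (by linarith)

theorem Qx_step {c : ℝ} {o t i j : ℕ} (hij : i ≤ j) (hj : j ≤ S.n) :
    S.Qx c o t j ≤ S.Qx c o t i + ∑ k ∈ range (S.nb t),
      (S.E (fun x => S.e i x (S.b1 o t k)) - S.E (fun x => S.e j x (S.b1 o t k))) := by
  unfold Qx
  rw [S.E_sum, S.E_sum, ← Finset.sum_add_distrib]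
  refine Finset.sum_le_sum fun k _ => ?_
  have h := S.E_mono (fun x => S.pos_part_av hij hj c x (b := S.b0 o t k) (b' := S.b1 o t k))
  rw [S.E_add, S.E_sub, S.E_av, S.E_av] at h
  exact h

/-- **(F3') BLOW-UP LEMMA** (helper728): the mass in excess of `c` at the level `k0` below the tops of
scale `t`, in the blocks in which the top has mass at most `c`. -/
theorem blowup {c : ℝ} (hc : 0 ≤ c) (o t k0 : ℕ) (hk0 : k0 ≤ 2 ^ t) :
    ∑ a ∈ range (S.na t), S.E (fun x => ∑ k ∈ range (S.nb t), ind (S.nuT o t a x k ≤ c) *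
        max 0 (S.nu ((a + 1) * 2 ^ t - k0) x (S.b0 o t k) (S.b1 o t k) - c)) ≤
      1 + ∑ a ∈ range (S.na t), S.E (fun x => ∑ k ∈ range (S.nb t),
        S.G t a x (S.b1 o t k)) := by
  -- one group
  have key : ∀ a ∈ range (S.na t),
      S.E (fun x => ∑ k ∈ range (S.nb t), ind (S.nuT o t a x k ≤ c) *
        max 0 (S.nu ((a + 1) * 2 ^ t - k0) x (S.b0 o t k) (S.b1 o t k) - c)) ≤
      (S.Qx c o t (a * 2 ^ t) - S.Qx c o t ((a + 1) * 2 ^ t)) +
        S.E (fun x => ∑ k ∈ range (S.nb t), S.G t a x (S.b1 o t k)) := by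
    intro a ha
    have ha' := mem_range.1 ha
    have hL : (a + 1) * 2 ^ t ≤ S.n := S.top_le' ha'
    have hl1 : a * 2 ^ t ≤ (a + 1) * 2 ^ t - k0 := by
      have : (a + 1) * 2 ^ t = a * 2 ^ t + 2 ^ t := by ring
      omega
    have hl2 : (a + 1) * 2 ^ t - k0 ≤ (a + 1) * 2 ^ t := Nat.sub_le _ _
    have hln : (a + 1) * 2 ^ t - k0 ≤ S.n := hl2.trans hL
    generalize (a + 1) * 2 ^ t - k0 = l at *
    -- first step: from the restricted sum to `Q_l - Q_L + gains`
    have h1 : S.E (fun x => ∑ k ∈ range (S.nb t), ind (S.nuT o t a x k ≤ c) *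
        max 0 (S.nu l x (S.b0 o t k) (S.b1 o t k) - c)) ≤
        (S.Qx c o t l - S.Qx c o t ((a + 1) * 2 ^ t)) +
        ∑ k ∈ range (S.nb t), (S.E (fun x => S.e l x (S.b1 o t k))
          - S.E (fun x => S.e ((a + 1) * 2 ^ t) x (S.b1 o t k))) := by
      unfold Qx
      rw [S.E_sum, S.E_sum, S.E_sum, ← Finset.sum_sub_distrib, ← Finset.sum_add_distrib]
      refine Finset.sum_le_sum fun k _ => ?_
      have hm : ∀ x y, S.q ((a + 1) * 2 ^ t) x = S.q ((a + 1) * 2 ^ t) y →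
          ind (S.nuT o t a x k ≤ c) = ind (S.nuT o t a y k ≤ c) := by
        intro x y h
        unfold nuT nu
        rw [S.meas _ _ _ h]
      rw [← S.E_pull' ((a + 1) * 2 ^ t) hm]
      have h2 : ∀ x, ind (S.nuT o t a x k ≤ c) * S.av ((a + 1) * 2 ^ t)
          (fun y => max 0 (S.nu l y (S.b0 o t k) (S.b1 o t k) - c)) x ≤
          (S.av ((a + 1) * 2 ^ t) (fun y => max 0 (S.nu l y (S.b0 o t k) (S.b1 o t k) - c)) x
            - max 0 (S.nu ((a + 1) * 2 ^ t) x (S.b0 o t k) (S.b1 o t k) - c))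
            + (S.av ((a + 1) * 2 ^ t) (fun y => S.e l y (S.b1 o t k)) x
              - S.e ((a + 1) * 2 ^ t) x (S.b1 o t k)) := by
        intro x
        have h3 := S.pos_part_av hl2 hL c x (b := S.b0 o t k) (b' := S.b1 o t k)
        have hG : 0 ≤ S.av ((a + 1) * 2 ^ t) (fun y => S.e l y (S.b1 o t k)) x
              - S.e ((a + 1) * 2 ^ t) x (S.b1 o t k) := sub_nonneg.2 (S.e_le_av hl2 hL x _)
        by_cases hcc : S.nuT o t a x k ≤ c
        · rw [ind_true hcc, one_mul]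
          have h5 : max 0 (S.nu ((a + 1) * 2 ^ t) x (S.b0 o t k) (S.b1 o t k) - c) = 0 :=
            max_eq_left (by unfold nuT at hcc; linarith)
          rw [h5]; linarith
        · rw [ind_false hcc, zero_mul]
          linarith
      have h6 := S.E_mono h2
      rw [S.E_add, S.E_sub, S.E_av, S.E_sub, S.E_av] at h6
      exact h6
    -- second step: from level `l` to the units
    have h7 := S.Qx_step (c := c) (o := o) (t := t) hl1 hln
    have h8 : S.E (fun x => ∑ k ∈ range (S.nb t), S.G t a x (S.b1 o t k)) =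
        ∑ k ∈ range (S.nb t),
        (S.E (fun x => S.e (a * 2 ^ t) x (S.b1 o t k)) - S.E (fun x => S.e l x (S.b1 o t k))) +
        ∑ k ∈ range (S.nb t), (S.E (fun x => S.e l x (S.b1 o t k))
          - S.E (fun x => S.e ((a + 1) * 2 ^ t) x (S.b1 o t k))) := by
      rw [S.E_sum, ← Finset.sum_add_distrib]
      refine Finset.sum_congr rfl fun k _ => ?_
      rw [S.E_G]
      ring
    linarith
  refine (Finset.sum_le_sum key).trans ?_
  rw [Finset.sum_add_distrib]
  have h9 : ∑ a ∈ range (S.na t), (S.Qx c o t (a * 2 ^ t) - S.Qx c o t ((a + 1) * 2 ^ t))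
      = S.Qx c o t (0 * 2 ^ t) - S.Qx c o t (S.na t * 2 ^ t) :=
    Finset.sum_range_sub' (fun a => S.Qx c o t (a * 2 ^ t)) (S.na t)
  rw [h9]
  have h10 := S.Qx_le_one hc o t (0 * 2 ^ t)
  have h11 := S.Qx_nonneg c o t (S.na t * 2 ^ t)
  linarith

end Sys

end Vale.Agent.P315.Acc
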