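import Mathlib

/-!
P315, Part A (accounting theorem), row A-F3 (helper587): the clipped entropy function `Psi` and the
Jensen deficit.  `psi A q = min A (log (1/q))`, `Psi A p = ∫_0^p psi`, in closed form.
-/

set_option linter.all false

namespace Vale.Agent.P315.H587

open Real Finset

/-- `min A (log (1/q))` on `[0,1]` -/
noncomputable def psi (A q : ℝ) : ℝ := if q ≤ exp (-A) then A else -log q

/-- `∫_0^p psi A`, in closed form -/
noncomputable def Psi (A p : ℝ) : ℝ := if p ≤ exp (-A) then A * p else p - p * log p - exp (-A)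

theorem Psi_zero (A : ℝ) : Psi A 0 = 0 := by
  unfold Psi
  rw [if_pos (exp_pos _).le, mul_zero]

theorem psi_le {A q : ℝ} : psi A q ≤ A := by
  unfold psi
  split_ifs with h
  · exact le_rfl
  · push Not at h
    have h1 := Real.log_lt_log (exp_pos _) h
    rw [Real.log_exp] at h1
    linarith

theorem psi_nonneg {A q : ℝ} (hA : 0 ≤ A) (hq : q ≤ 1) : 0 ≤ psi A q := by
  unfold psi
  split_ifs with h
  · exact hA
  · push Not at h
    have h1 : 0 < q := (exp_pos _).trans h
    have h2 := Real.log_nonpos h1.le hq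
    linarith

/-- tangent line at `p`, with a gain at the excess points -/
theorem Psi_tangent {A p q : ℝ} (hp : 0 ≤ p) (hq : 0 ≤ q) :
    Psi A q ≤ Psi A p + psi A p * (q - p) := by
  unfold Psi psi
  split_ifs with h1 h2 h2
  · linarith
  · push Not at h2
    -- p large, q small
    have hpp : 0 < p := (exp_pos _).trans h2
    have h3 : log p + A = log (p * exp A) := by
      rw [Real.log_mul hpp.ne' (exp_pos _).ne', Real.log_exp]
    have hy : 1 ≤ p * exp A := by
      have h4 : exp (-A) * exp A ≤ p * exp A := mul_le_mul_of_nonneg_right h2.le (exp_pos _).le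
      rwa [← Real.exp_add, neg_add_cancel, Real.exp_zero] at h4
    have h5 : log (p * exp A) ≤ p * exp A - 1 := Real.log_le_sub_one_of_pos (by positivity)
    have h6 : 0 ≤ log (p * exp A) := Real.log_nonneg hy
    have h7 : q * log (p * exp A) ≤ exp (-A) * (p * exp A - 1) :=
      mul_le_mul h1 h5 h6 (exp_pos _).le
    have h8 : exp (-A) * (p * exp A - 1) = p - exp (-A) := by
      have : exp (-A) * exp A = 1 := by rw [← Real.exp_add, neg_add_cancel, Real.exp_zero]
      linear_combination p * this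
    rw [h8, ← h3] at h7
    linarith
  · push Not at h1
    -- p small, q large
    have hqq : 0 < q := (exp_pos _).trans h1
    have hy : 0 < q * exp A := by positivity
    have h3 : log q + A = log (q * exp A) := by
      rw [Real.log_mul hqq.ne' (exp_pos _).ne', Real.log_exp]
    have h5 : 1 - (q * exp A)⁻¹ ≤ log (q * exp A) := Real.one_sub_inv_le_log_of_pos hy
    have h6 : q * (1 - (q * exp A)⁻¹) ≤ q * log (q * exp A) := mul_le_mul_of_nonneg_left h5 hqq.le
    have h7 : q * (1 - (q * exp A)⁻¹) = q - exp (-A) := by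
      rw [mul_inv, Real.exp_neg]
      field_simp
    rw [h7, ← h3] at h6
    linarith
  · push Not at h1 h2
    have hpp : 0 < p := (exp_pos _).trans h2
    have hqq : 0 < q := (exp_pos _).trans h1
    have h5 : 1 - (q / p)⁻¹ ≤ log (q / p) := Real.one_sub_inv_le_log_of_pos (by positivity)
    rw [Real.log_div hqq.ne' hpp.ne', inv_div] at h5
    have h6 := mul_le_mul_of_nonneg_left h5 hqq.le
    have h7 : q * (1 - p / q) = q - p := by field_simp
    rw [h7] at h6
    linarith

/-- the gain at an excess point -/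
theorem Psi_excess {A L p q : ℝ} (hp : 0 ≤ p) (hL : exp (3 / 2) ≤ L) (hq : exp (3 / 2 - A) ≤ q)
    (hLp : L * p ≤ q) : Psi A q ≤ Psi A p + psi A p * (q - p) - q / 2 := by
  have hqq : 0 < q := (exp_pos _).trans_le hq
  have hq1 : exp (-A) < q := lt_of_lt_of_le (Real.exp_lt_exp.2 (by linarith)) hq
  unfold Psi psi
  rw [if_neg (not_le.2 hq1)]
  split_ifs with h2
  · have h3 : 3 / 2 - A ≤ log q := (Real.le_log_iff_exp_le hqq).2 hq
    have h4 := mul_le_mul_of_nonneg_left h3 hqq.le
    have := (exp_pos (-A))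
    nlinarith
  · push Not at h2
    have hpp : 0 < p := (exp_pos _).trans h2
    have h3 : exp (3 / 2) * p ≤ q := (mul_le_mul_of_nonneg_right hL hp).trans hLp
    have h4 : 3 / 2 + log p ≤ log q := by
      rw [← Real.log_exp (3 / 2), ← Real.log_mul (exp_pos _).ne' hpp.ne']
      exact Real.log_le_log (by positivity) h3
    have h5 := mul_le_mul_of_nonneg_left h4 hqq.le
    nlinarith

theorem Psi_mono {A p q : ℝ} (hA : 0 ≤ A) (hp : 0 ≤ p) (hpq : p ≤ q) (hq : q ≤ 1) :
    Psi A p ≤ Psi A q := by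
  have h1 := Psi_tangent (A := A) (hp.trans hpq) hp
  have h2 := mul_nonneg (psi_nonneg hA hq) (sub_nonneg.2 hpq)
  linarith

theorem Psi_nonneg {A p : ℝ} (hA : 0 ≤ A) (hp : 0 ≤ p) (h1 : p ≤ 1) : 0 ≤ Psi A p := by
  have := Psi_mono hA le_rfl hp h1
  rwa [Psi_zero] at this

theorem Psi_le {A p : ℝ} (hp : 0 ≤ p) : Psi A p ≤ A * p := by
  have h1 := Psi_tangent (A := A) (le_refl (0 : ℝ)) hp
  have h2 : psi A 0 ≤ A := psi_le
  rw [Psi_zero] at h1
  have h3 := mul_le_mul_of_nonneg_right h2 hp
  simp only [sub_zero, zero_add] at h1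
  exact h1.trans h3

/-- one-sided Lipschitz bound -/
theorem Psi_sub_le {A p q : ℝ} (hA : 0 ≤ A) (hp : 0 ≤ p) (hq : 0 ≤ q) (hq1 : q ≤ 1) :
    Psi A p ≤ Psi A q + A * max 0 (p - q) := by
  rcases le_total p q with h | h
  · have h1 := Psi_mono hA hp h hq1
    have h2 := mul_nonneg hA (le_max_left 0 (p - q))
    linarith
  · have h1 := Psi_tangent (A := A) hq hp
    have h2 : psi A q * (p - q) ≤ A * max 0 (p - q) :=
      mul_le_mul psi_le (le_max_right _ _) (sub_nonneg.2 h) hA
    linarith

/-- **Jensen deficit.**  For a finite probability vector `w` and numbers `x i ≥ 0` with mean `p`, the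
deficit of `Psi` is at least half of the mass of the excess points. -/
theorem jensen_deficit {ι : Type*} (s : Finset ι) (w x : ι → ℝ) {A L : ℝ} (hw : ∀ i ∈ s, 0 ≤ w i)
    (hw1 : ∑ i ∈ s, w i = 1) (hx : ∀ i ∈ s, 0 ≤ x i) (hL : exp (3 / 2) ≤ L) :
    ∑ i ∈ s, w i * Psi A (x i)
      + 1 / 2 * ∑ i ∈ s, w i * (if L * (∑ j ∈ s, w j * x j) ≤ x i ∧ exp (3 / 2 - A) ≤ x i then x i
          else 0) ≤ Psi A (∑ i ∈ s, w i * x i) := by
  set p := ∑ j ∈ s, w j * x j with hp
  have hp0 : 0 ≤ p := sum_nonneg fun i hi => mul_nonneg (hw i hi) (hx i hi)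
  have key : ∀ i ∈ s, w i * Psi A (x i) + 1 / 2 * (w i * (if L * p ≤ x i ∧ exp (3 / 2 - A) ≤ x i
      then x i else 0)) ≤ w i * Psi A p + psi A p * (w i * x i) - psi A p * p * w i := by
    intro i hi
    split_ifs with h
    · have h1 := mul_le_mul_of_nonneg_left (Psi_excess (A := A) hp0 hL h.2 h.1) (hw i hi)
      nlinarith
    · have h1 := mul_le_mul_of_nonneg_left (Psi_tangent (A := A) hp0 (hx i hi)) (hw i hi)
      nlinarith
  have h2 := sum_le_sum key
  rw [sum_add_distrib, ← mul_sum, sum_sub_distrib, sum_add_distrib, ← sum_mul, ← mul_sum, ← mul_sum,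
    hw1, ← hp] at h2
  linarith

end Vale.Agent.P315.H587
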