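import Mathlib

namespace Vale.Agent.P315.H587

open Finset

set_option linter.unusedSectionVars false

/-- a weighted finite set of leaves with the ids of the ancestors -/
structure Fr (X : Type*) where
  w : X → ℝ
  hw : ∀ x, 0 < w x
  q : ℕ → X → ℕ
  nest : ∀ j x y, q j x = q j y → q (j + 1) x = q (j + 1) y

variable {X : Type*} [Fintype X] (F : Fr X)

/-- average over all leaves -/
noncomputable def EE (f : X → ℝ) : ℝ := (∑ x, F.w x * f x) / ∑ x, F.w x

/-- the leaves below the ancestor of `x` at level `j` -/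
noncomputable def cl (j : ℕ) (x : X) : Finset X := univ.filter (fun y => F.q j y = F.q j x)

/-- conditional average at level `j` -/
noncomputable def avg (j : ℕ) (f : X → ℝ) (x : X) : ℝ :=
  (∑ y ∈ cl F j x, F.w y * f y) / ∑ y ∈ cl F j x, F.w y

def Meas (j : ℕ) (f : X → ℝ) : Prop := ∀ x y, F.q j x = F.q j y → f x = f y

variable {F}

theorem mem_cl {j : ℕ} {x y : X} : y ∈ cl F j x ↔ F.q j y = F.q j x := by simp [cl]

theorem self_mem_cl (j : ℕ) (x : X) : x ∈ cl F j x := by simp [cl]

theorem cl_pos (j : ℕ) (x : X) : 0 < ∑ y ∈ cl F j x, F.w y :=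
  Finset.sum_pos (fun y _ => F.hw y) ⟨x, self_mem_cl j x⟩

theorem cl_congr {j : ℕ} {x y : X} (h : F.q j x = F.q j y) : cl F j x = cl F j y := by
  ext z; simp [cl, h]

theorem nest_le {i j : ℕ} (hij : i ≤ j) {x y : X} (h : F.q i x = F.q i y) :
    F.q j x = F.q j y := by
  induction j, hij using Nat.le_induction with
  | base => exact h
  | succ j _ ih => exact F.nest _ _ _ ih

theorem Meas.mono {i j : ℕ} (hij : i ≤ j) {f : X → ℝ} (hf : Meas F j f) :
    Meas F i f := fun x y h => hf x y (nest_le hij h)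

theorem avg_meas (j : ℕ) (f : X → ℝ) : Meas F j (avg F j f) := by
  intro x y h
  simp only [avg, cl_congr h]

theorem avg_of_meas {j : ℕ} {f : X → ℝ} (hf : Meas F j f) (x : X) : avg F j f x = f x := by
  unfold avg
  rw [Finset.sum_congr rfl (fun y hy => by rw [hf y x (mem_cl.1 hy)]), ← Finset.sum_mul]
  have := cl_pos (F := F) j x
  field_simp

theorem avg_add (j : ℕ) (f g : X → ℝ) (x : X) :
    avg F j (fun y => f y + g y) x = avg F j f x + avg F j g x := by
  simp only [avg, mul_add, Finset.sum_add_distrib, add_div]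

theorem avg_sub (j : ℕ) (f g : X → ℝ) (x : X) :
    avg F j (fun y => f y - g y) x = avg F j f x - avg F j g x := by
  simp only [avg, mul_sub, Finset.sum_sub_distrib, sub_div]

theorem avg_const_mul (j : ℕ) (c : ℝ) (f : X → ℝ) (x : X) :
    avg F j (fun y => c * f y) x = c * avg F j f x := by
  simp only [avg, mul_left_comm _ c, ← Finset.mul_sum, mul_div_assoc]

theorem avg_mono (j : ℕ) {f g : X → ℝ} (h : ∀ y, f y ≤ g y) (x : X) :
    avg F j f x ≤ avg F j g x := by
  unfold avg
  exact div_le_div_of_nonneg_right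
    (Finset.sum_le_sum fun y _ => mul_le_mul_of_nonneg_left (h y) (F.hw y).le) (cl_pos j x).le

theorem avg_nonneg (j : ℕ) {f : X → ℝ} (h : ∀ y, 0 ≤ f y) (x : X) : 0 ≤ avg F j f x :=
  div_nonneg (Finset.sum_nonneg fun y _ => mul_nonneg (F.hw y).le (h y)) (cl_pos j x).le

theorem avg_mul_meas (j : ℕ) {c : X → ℝ} (hc : Meas F j c) (f : X → ℝ) (x : X) :
    avg F j (fun y => c y * f y) x = c x * avg F j f x := by
  unfold avg
  rw [← mul_div_assoc, Finset.mul_sum]
  congr 1
  refine Finset.sum_congr rfl fun y hy => ?_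
  simp only [hc y x (mem_cl.1 hy)]
  ring

theorem avg_sum {ι : Type*} (s : Finset ι) (j : ℕ) (f : ι → X → ℝ) (x : X) :
    avg F j (fun y => ∑ i ∈ s, f i y) x = ∑ i ∈ s, avg F j (f i) x := by
  simp only [avg, Finset.mul_sum, Finset.sum_div]
  rw [Finset.sum_comm]

/-- the average of the level averages is the average -/
theorem EE_avg (j : ℕ) (f : X → ℝ) : EE F (avg F j f) = EE F f := by
  classical
  unfold EE
  congr 1
  have h1 : ∀ x, F.w x * avg F j f x = ∑ y, if F.q j y = F.q j x then
      F.w x * (F.w y * f y / (∑ z ∈ cl F j y, F.w z)) else 0 := by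
    intro x
    unfold avg
    rw [Finset.sum_div, Finset.mul_sum, ← Finset.sum_filter]
    refine Finset.sum_congr rfl fun y hy => ?_
    rw [cl_congr (mem_cl.1 hy)]
  simp only [h1]
  rw [Finset.sum_comm]
  refine Finset.sum_congr rfl fun y _ => ?_
  rw [← Finset.sum_filter, ← Finset.sum_mul]
  have h2 : (univ.filter fun x => F.q j y = F.q j x) = cl F j y := by
    ext z; simp [cl, eq_comm]
  rw [h2]
  have := cl_pos (F := F) j y
  field_simp

/-- tower property -/
theorem avg_avg {i j : ℕ} (hij : i ≤ j) (f : X → ℝ) (x : X) :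
    avg F j (avg F i f) x = avg F j f x := by
  classical
  unfold avg
  congr 1
  have h1 : ∀ u, F.w u * ((∑ y ∈ cl F i u, F.w y * f y) / ∑ y ∈ cl F i u, F.w y)
      = ∑ y ∈ cl F j u, if F.q i y = F.q i u then
      F.w u * (F.w y * f y / (∑ z ∈ cl F i y, F.w z)) else 0 := by
    intro u
    rw [Finset.sum_div, Finset.mul_sum, ← Finset.sum_filter]
    have h0 : (cl F j u).filter (fun y => F.q i y = F.q i u) = cl F i u := by
      ext y
      simp only [mem_filter, mem_cl]
      exact ⟨fun h => h.2, fun h => ⟨nest_le hij h, h⟩⟩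
    rw [h0]
    refine Finset.sum_congr rfl fun y hy => ?_
    rw [cl_congr (mem_cl.1 hy)]
  have h3 : ∀ u ∈ cl F j x, F.w u * ((∑ y ∈ cl F i u, F.w y * f y) / ∑ y ∈ cl F i u, F.w y)
      = ∑ y ∈ cl F j x, if F.q i y = F.q i u then
      F.w u * (F.w y * f y / (∑ z ∈ cl F i y, F.w z)) else 0 := by
    intro u hu
    rw [h1, cl_congr (mem_cl.1 hu)]
  rw [Finset.sum_congr rfl h3, Finset.sum_comm]
  refine Finset.sum_congr rfl fun y hy => ?_
  rw [← Finset.sum_filter, ← Finset.sum_mul]
  have h2 : (cl F j x).filter (fun u => F.q i y = F.q i u) = cl F i y := by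
    ext z
    simp only [mem_filter, mem_cl]
    constructor
    · intro h; exact h.2.symm
    · intro h
      exact ⟨(nest_le hij h).trans (mem_cl.1 hy), h.symm⟩
  rw [h2]
  have := cl_pos (F := F) i y
  field_simp

theorem EE_mono {f g : X → ℝ} (h : ∀ x, f x ≤ g x) : EE F f ≤ EE F g := by
  unfold EE
  exact div_le_div_of_nonneg_right
    (Finset.sum_le_sum fun y _ => mul_le_mul_of_nonneg_left (h y) (F.hw y).le)
    (Finset.sum_nonneg fun y _ => (F.hw y).le)

theorem EE_nonneg {f : X → ℝ} (h : ∀ x, 0 ≤ f x) : 0 ≤ EE F f :=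
  div_nonneg (Finset.sum_nonneg fun y _ => mul_nonneg (F.hw y).le (h y))
    (Finset.sum_nonneg fun y _ => (F.hw y).le)

theorem EE_add (f g : X → ℝ) : EE F (fun x => f x + g x) = EE F f + EE F g := by
  simp only [EE, mul_add, Finset.sum_add_distrib, add_div]

theorem EE_sub (f g : X → ℝ) : EE F (fun x => f x - g x) = EE F f - EE F g := by
  simp only [EE, mul_sub, Finset.sum_sub_distrib, sub_div]

theorem EE_const_mul (c : ℝ) (f : X → ℝ) : EE F (fun x => c * f x) = c * EE F f := by
  simp only [EE, mul_left_comm _ c, ← Finset.mul_sum, mul_div_assoc]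

theorem EE_sum {ι : Type*} (s : Finset ι) (f : ι → X → ℝ) :
    EE F (fun x => ∑ i ∈ s, f i x) = ∑ i ∈ s, EE F (f i) := by
  simp only [EE, Finset.mul_sum, Finset.sum_div]
  rw [Finset.sum_comm]

theorem EE_const [Nonempty X] (c : ℝ) : EE F (fun _ : X => c) = c := by
  have : 0 < ∑ x, F.w x := Finset.sum_pos (fun y _ => F.hw y) Finset.univ_nonempty
  simp only [EE, ← Finset.sum_mul]
  field_simp

end Vale.Agent.P315.H587
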