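import Mathlib

/-!
# P315, Part A, Step 5: frame-independent parts

* `sum_off_le`    : random offset of a grid (sum over the offsets of the sums over the block starts)
* `sum_drop_le`   : drop over the first `Dm` indices of the blocks, summed over the offsets
* `exists_unstable` : the first big ratio of a sequence
* `type_count`    : at most one threshold of a geometric progression catches a number
-/

namespace Vale.Agent.P315.H587

open Finset

/-- each index is the start of a block of length `D` for at most `W` offsets `o < W * D`. -/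
theorem sum_off_le (h : ℕ → ℝ) (hh : ∀ b, 0 ≤ h b) (D W K : ℕ) :
    ∑ o ∈ range (W * D), ∑ k ∈ range K, h (o + k * D) ≤ W * ∑ b ∈ range ((W + K) * D), h b := by
  classical
  rcases Nat.eq_zero_or_pos D with hD | hD
  · subst hD; simp
  -- write o = r + w D
  have h1 : ∑ o ∈ range (W * D), ∑ k ∈ range K, h (o + k * D)
      = ∑ w ∈ range W, ∑ r ∈ range D, ∑ k ∈ range K, h (w * D + r + k * D) := by
    rw [Finset.sum_range, Finset.sum_range]
    rw [← Equiv.sum_comp finProdFinEquiv, Fintype.sum_prod_type]
    refine Finset.sum_congr rfl fun w _ => ?_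
    rw [Finset.sum_range]
    refine Finset.sum_congr rfl fun r _ => ?_
    refine Finset.sum_congr rfl fun k _ => ?_
    congr 2
    simp [finProdFinEquiv]
    ring
  rw [h1]
  have h2 : ∀ w ∈ range W, ∑ r ∈ range D, ∑ k ∈ range K, h (w * D + r + k * D)
      ≤ ∑ b ∈ range ((W + K) * D), h b := by
    intro w hw
    have hw' : w < W := mem_range.1 hw
    have h3 : ∑ r ∈ range D, ∑ k ∈ range K, h (w * D + r + k * D)
        = ∑ k ∈ range K, ∑ r ∈ range D, h ((w + k) * D + r) := by
      rw [Finset.sum_comm]
      refine Finset.sum_congr rfl fun k _ => Finset.sum_congr rfl fun r _ => ?_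
      congr 1; ring
    rw [h3]
    have h4 : ∑ b ∈ range ((W + K) * D), h b
        = ∑ k ∈ range (W + K), ∑ r ∈ range D, h (k * D + r) := by
      rw [Finset.sum_range, ← Equiv.sum_comp finProdFinEquiv, Fintype.sum_prod_type,
        Finset.sum_range]
      refine Finset.sum_congr rfl fun w _ => ?_
      rw [Finset.sum_range]
      refine Finset.sum_congr rfl fun r _ => ?_
      congr 1
      simp [finProdFinEquiv]
      ring
    rw [h4]
    have h5 : ∑ k ∈ range K, ∑ r ∈ range D, h ((w + k) * D + r)
        = ∑ k ∈ (range K).image (fun k => w + k), ∑ r ∈ range D, h (k * D + r) := by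
      rw [Finset.sum_image]
      intro a _ b _ hab
      simpa using hab
    rw [h5]
    refine Finset.sum_le_sum_of_subset_of_nonneg ?_ ?_
    · intro k hk
      rw [mem_image] at hk
      obtain ⟨k', hk', rfl⟩ := hk
      have := mem_range.1 hk'
      exact mem_range.2 (by omega)
    · intro k _ _
      exact Finset.sum_nonneg fun r _ => hh _
  calc ∑ w ∈ range W, ∑ r ∈ range D, ∑ k ∈ range K, h (w * D + r + k * D)
      ≤ ∑ w ∈ range W, ∑ b ∈ range ((W + K) * D), h b := Finset.sum_le_sum h2
    _ = W * ∑ b ∈ range ((W + K) * D), h b := by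
        rw [Finset.sum_const, card_range, nsmul_eq_mul]

/-- telescoping: a nonincreasing function with values in `[0,1]` drops by at most `Dm` in total over all
windows of length `Dm`. -/
theorem sum_window_le (f : ℕ → ℝ) (h0 : ∀ b, 0 ≤ f b) (h1 : ∀ b, f b ≤ 1) (Dm N : ℕ) :
    ∑ b ∈ range N, (f b - f (b + Dm)) ≤ Dm := by
  have key : ∀ Dm : ℕ, ∑ b ∈ range N, (f b - f (b + Dm)) ≤ Dm := by
    intro Dm
    induction Dm with
    | zero => simp
    | succ d ih =>
      have h2 : ∑ b ∈ range N, (f b - f (b + (d + 1)))
          = ∑ b ∈ range N, (f b - f (b + d)) + ∑ b ∈ range N, (f (b + d) - f (b + d + 1)) := by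
        rw [← Finset.sum_add_distrib]
        refine Finset.sum_congr rfl fun b _ => ?_
        rw [← add_assoc]; ring
      have h3 : ∑ b ∈ range N, (f (b + d) - f (b + d + 1)) = f d - f (N + d) := by
        have := Finset.sum_range_sub' (fun b => f (b + d)) N
        simp only [zero_add] at this
        rw [← this]
        refine Finset.sum_congr rfl fun b _ => ?_
        congr 2; ring
      rw [h2, h3]
      push_cast
      have := h0 (N + d)
      have := h1 d
      linarith
  exact key Dm

/-- the drop over the first `Dm` indices of the blocks of length `D`, summed over the offsets `o < W D`. -/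
theorem sum_off_drop_le (f : ℕ → ℝ) (hf : Antitone f) (h0 : ∀ b, 0 ≤ f b) (h1 : ∀ b, f b ≤ 1)
    (Dm D W K : ℕ) :
    ∑ o ∈ range (W * D), ∑ k ∈ range K, (f (o + k * D) - f (o + k * D + Dm)) ≤ W * Dm := by
  have h2 := sum_off_le (fun b => f b - f (b + Dm))
    (fun b => sub_nonneg.2 (hf (Nat.le_add_right _ _))) D W K
  refine h2.trans ?_
  exact mul_le_mul_of_nonneg_left (sum_window_le f h0 h1 Dm _) (Nat.cast_nonneg _)

/-- a sequence which falls by more than `Lam ^ k` in `k` steps has a first step of ratio more than `Lam`,
and until then it has fallen by at most `Lam` per step. -/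
theorem exists_unstable (p : ℕ → ℝ) (Lam x : ℝ) (hL : 1 ≤ Lam) (s k : ℕ)
    (h0 : x ≤ p s) (h1 : Lam ^ k * p (s + k) < x) :
    ∃ t, s ≤ t ∧ t < s + k ∧ Lam * p (t + 1) < p t ∧ x ≤ Lam ^ (t - s) * p t := by
  by_contra hcon
  push Not at hcon
  have key : ∀ j, j ≤ k → x ≤ Lam ^ j * p (s + j) := by
    intro j
    induction j with
    | zero => intro _; simpa using h0
    | succ j ih =>
      intro hj
      have h2 := ih (by omega)
      by_contra h3
      have h4 : Lam * p (s + j + 1) < p (s + j) := by
        by_contra h5
        push Not at h5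
        apply h3
        have hpos : 0 ≤ Lam ^ j := by positivity
        calc x ≤ Lam ^ j * p (s + j) := h2
          _ ≤ Lam ^ j * (Lam * p (s + j + 1)) := mul_le_mul_of_nonneg_left h5 hpos
          _ = Lam ^ (j + 1) * p (s + (j + 1)) := by rw [pow_succ]; ring_nf
      have h6 := hcon (s + j) (by omega) (by omega) h4
      rw [Nat.add_sub_cancel_left] at h6
      exact absurd h2 (not_le.2 h6)
  exact absurd (key k le_rfl) (not_le.2 h1)

/-- thresholds with ratio more than `C`: a number lies between a threshold and `C` times it for at most one. -/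
theorem type_count {ι : Type*} (I : Finset ι) (th : ι → ℝ) (C p : ℝ)
    (hsep : ∀ i ∈ I, ∀ j ∈ I, i ≠ j → C * th i < th j ∨ C * th j < th i) :
    ((I.filter fun i => th i ≤ p ∧ p ≤ C * th i).card : ℝ) ≤ 1 := by
  classical
  have : (I.filter fun i => th i ≤ p ∧ p ≤ C * th i).card ≤ 1 := by
    rw [Finset.card_le_one]
    intro i hi j hj
    rw [mem_filter] at hi hj
    by_contra hne
    rcases hsep i hi.1 j hj.1 hne with h | h
    · linarith [hi.2.2, hj.2.1]
    · linarith [hj.2.2, hi.2.1]
  exact_mod_cast this

end Vale.Agent.P315.H587
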