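import Vale.Agent.P315.H587.Tight

/-!
# P315, Part A: STEPS F3', 5, 7, 8, 9 in the form of helper679's plan 2
-/

open Finset

namespace Vale.Agent.P315.Acc

variable {X : Type} [Fintype X] [Nonempty X]

namespace Sys

variable (S : Sys X)

theorem GG1_eq_TT (o s : ℕ) : S.GG1 o s s = S.TT s (fun a x k => S.G s a x (S.b1 o s k)) := by
  unfold GG1 TT
  refine Finset.sum_congr rfl fun a _ => ?_
  rw [S.E_sum]

theorem GG0_eq_TT (o s : ℕ) : S.GG0 o s s = S.TT s (fun a x k => S.G s a x (S.b0 o s k)) := by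
  unfold GG0 TT
  refine Finset.sum_congr rfl fun a _ => ?_
  rw [S.E_sum]

theorem TT_eq (s : ℕ) (f : ℕ → X → ℕ → ℝ) :
    S.TT s f = ∑ a ∈ range (S.na s), ∑ k ∈ range (S.nb s), S.E (fun x => f a x k) := by
  unfold TT
  refine Finset.sum_congr rfl fun a _ => ?_
  rw [S.E_sum]

/-- (F3') with the constant 1. -/
theorem stepF3' {o : ℕ} {t r : ℕ} (hr : r ≤ 2 ^ t) {c : ℝ} (hc : 0 ≤ c) :
    ∑ a ∈ range (S.na t), ∑ k ∈ range (S.nb t), S.E (fun x => ind (S.nuT o t a x k ≤ c) *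
      max (S.nu (a * 2 ^ t + r) x (S.b0 o t k) (S.b1 o t k) - c) 0) ≤
    1 + S.GG1 o t t := by
  have h := S.blowup hc o t (2 ^ t - r) (Nat.sub_le _ _)
  have e : ∀ a, (a + 1) * 2 ^ t - (2 ^ t - r) = a * 2 ^ t + r := by
    intro a
    have : (a + 1) * 2 ^ t = a * 2 ^ t + 2 ^ t := by ring
    omega
  simp only [e] at h
  rw [GG1_eq_TT]
  refine le_trans (le_of_eq ?_) h
  refine Finset.sum_congr rfl fun a _ => ?_
  rw [S.E_sum]
  refine Finset.sum_congr rfl fun k _ => ?_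
  simp only [max_comm]

theorem stepF3 {o : ℕ} (_ho : o < S.D S.smax) {t r : ℕ} (ht : t ≤ S.smax) (hr : r ≤ 2 ^ t)
    {c : ℝ} (hc : 0 ≤ c) :
    ∑ a ∈ range (S.na t), ∑ k ∈ range (S.nb t), S.E (fun x => ind (S.nuT o t a x k ≤ c) *
      max (S.nu (a * 2 ^ t + r) x (S.b0 o t k) (S.b1 o t k) - c) 0) ≤
    1 + 2 * S.GG1 o t t := by
  have := S.stepF3' (o := o) hr hc
  have := S.GG1_nonneg (o := o) (s' := t) ht
  linarith

end Sys

namespace Mach

variable {S : Sys X} (R : Mach S)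

theorem actv_ge {th th' : ℕ → ℝ} {o s a : ℕ} {x : X} {k : ℕ} (h : R.actv th th' o s a x k) :
    3 / 8 * th s ≤ R.m o s a x k := by
  obtain ⟨l, ⟨h1, _⟩, h3, _⟩ := h
  rw [pow_succ] at h3
  linarith

theorem actv_lt {th th' : ℕ → ℝ} {o s a : ℕ} {x : X} {k : ℕ} (h : R.actv th th' o s a x k) :
    R.m o s a x k < 5 / 2 * th' s := by
  obtain ⟨l, ⟨_, h2⟩, _, h4⟩ := h
  rw [pow_succ] at h2
  linarith

theorem actv_of_tight {th th' : ℕ → ℝ} {o s a : ℕ} (hs : s ≤ S.smax) (ha : a < S.na s)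
    (hth : 0 < th s) (hth' : 5 / 4 * th' s < 1) {x : X} {k : ℕ} (ht : R.tight o s a x k)
    (h1 : th s ≤ S.nuT o s a x k) (h2 : S.nuT o s a x k ≤ th' s) : R.actv th th' o s a x k := by
  have h3 := R.tight_m_le hs ha ht
  have h4 := R.tight_le_m hs ha ht
  obtain ⟨l, hl1, hl2⟩ := exists_cls (z := R.m o s a x k) (by linarith) (by linarith)
  exact ⟨l, ⟨by linarith, by linarith⟩, hl1, hl2⟩

theorem inA_nuT_lt {th th' : ℕ → ℝ} {o s a : ℕ} (hs : s ≤ S.smax) (ha : a < S.na s) {x : X}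
    {k : ℕ} (h : R.inA th th' o s a x k) : S.nuT o s a x k < 10 / 3 * th' s := by
  have h1 := R.actv_lt h.1
  have h2 := R.tight_le_m hs ha h.2.1
  linarith

theorem inA_excl {th th' : ℕ → ℝ} (hth' : ∀ t, 0 ≤ th' t) {o s t a : ℕ} (hst : s + 2 ≤ t)
    (ht : t ≤ S.smax) {x : X} {k : ℕ} (ha : a / 2 ^ (t - s) < S.na t)
    (h1 : R.inA th th' o s a x k) (h2 : R.inA th th' o t (a / 2 ^ (t - s)) x (k / 16 ^ (t - s))) :
    False := by
  have h3 := h1.2.2 t hst ht
  have h4 := R.inA_nuT_lt ht ha h2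
  have := hth' t
  linarith

theorem step5 {th th' : ℕ → ℝ} {o s a : ℕ} (hs : s ≤ S.smax) (ha : a < S.na s)
    (h1 : 1000 * R.tau s ≤ th s) (h3 : 0 < th s) (h4 : 5 / 4 * th' s < 1) (x : X) (k : ℕ)
    (hx : th s ≤ S.nuT o s a x k) (hx' : S.nuT o s a x k ≤ th' s) :
    S.rho o s a x k ≤ 6 * (S.G s a x (S.b0 o s k) + S.G s a x (S.b1 o s k)) +
      ind (R.inA th th' o s a x k) * S.rho o s a x k +
      2 * (ind (R.unst th th' o s a x k) * S.nuT o s a x k) := by
  have hG0 := S.G_nonneg' ha x (S.b0 o s k)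
  have hG1 := S.G_nonneg' ha x (S.b1 o s k)
  have hnu := S.nuT_nonneg o s a x k
  have hrho := S.rho_nonneg o s a x k
  have hr := S.rho_eq o s a x k
  have hA : 0 ≤ ind (R.inA th th' o s a x k) * S.rho o s a x k := mul_nonneg (ind_nonneg _) hrho
  have hB : 0 ≤ ind (R.unst th th' o s a x k) * S.nuT o s a x k := mul_nonneg (ind_nonneg _) hnu
  by_cases ht : R.tight o s a x k
  · have hact := R.actv_of_tight hs ha h3 h4 ht hx hx'
    by_cases hu : R.ups th' o s a x k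
    · have hAA : R.inA th th' o s a x k := ⟨hact, ht, hu⟩
      rw [ind_true hAA]
      linarith
    · have hUU : R.unst th th' o s a x k := ⟨hact, ht, hu⟩
      rw [ind_true hUU]
      linarith
  · have := R.rho_le_of_not_tight ha h1 ht hx
    linarith

theorem step7 {th th' : ℕ → ℝ} {o s a : ℕ} (hs : s ≤ S.smax) (ha : a < S.na s)
    (h1 : 1000 * R.tau s ≤ th s) (_h3 : 0 < th s) (x : X) (k : ℕ)
    (hact : R.actv th th' o s a x k) (hA : ¬ R.inA th th' o s a x k) :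
    R.m o s a x k ≤ 6 * (S.G s a x (S.b0 o s k) + S.G s a x (S.b1 o s k)) +
      2 * (ind (R.unst th th' o s a x k) * S.nuT o s a x k) := by
  have hG0 := S.G_nonneg' ha x (S.b0 o s k)
  have hG1 := S.G_nonneg' ha x (S.b1 o s k)
  have hnu := S.nuT_nonneg o s a x k
  have hB : 0 ≤ ind (R.unst th th' o s a x k) * S.nuT o s a x k := mul_nonneg (ind_nonneg _) hnu
  by_cases ht : R.tight o s a x k
  · have hu : ¬ R.ups th' o s a x k := fun hu => hA ⟨hact, ht, hu⟩
    have hUU : R.unst th th' o s a x k := ⟨hact, ht, hu⟩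
    have h4 := R.tight_m_le hs ha ht
    rw [ind_true hUU]
    linarith
  · have h4 := R.m_le (o := o) hs ha x k
    have h5 := R.actv_ge hact
    unfold tight at ht
    push Not at ht
    linarith

theorem step8 {th th' : ℕ → ℝ} {o s : ℕ} (_ho : o < S.D S.smax) (hs : s ≤ S.smax)
    (hth' : ∀ t, 0 < th' t) (_h3 : 0 < th s)
    (hP1 : ∀ t, s + 2 ≤ t → t ≤ S.smax → 1000 * th' t ≤ th s) :
    ∑ a ∈ range (S.na s), ∑ k ∈ range (S.nb s), S.E (fun x =>
      ind (R.unst th th' o s a x k) * S.nuT o s a x k) ≤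
    ∑ t ∈ Ico (s + 2) (S.smax + 1), 2 * 2 ^ (t - s) * (1 + 2 * S.GG1 o t t) := by
  have hU := S.Us_le' (th' := th') (y := 3 / 10 * th s) (fun t => (hth' t).le) o s
    (fun t h1 h2 => by
      have := hP1 t h1 h2
      have := hth' t
      linarith)
  rw [← S.TT_eq s (fun a x k => ind (R.unst th th' o s a x k) * S.nuT o s a x k)]
  have h1 : S.TT s (fun a x k => ind (R.unst th th' o s a x k) * S.nuT o s a x k) ≤
      S.TT s (fun a x k => ind (3 / 10 * th s ≤ S.nuT o s a x k ∧ ¬ S.upst th' o s a x k) *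
        S.nuT o s a x k) := by
    refine S.TT_mono fun a ha x k => ?_
    refine mul_le_mul_of_nonneg_right (ind_mono ?_) (S.nuT_nonneg o s a x k)
    rintro ⟨h2, h4, h5⟩
    refine ⟨?_, h5⟩
    have h6 := R.actv_ge h2
    have h7 := R.tight_m_le hs ha h4
    linarith
  refine h1.trans (hU.trans ?_)
  unfold Sys.US
  have hI : Icc (s + 2) S.smax = Ico (s + 2) (S.smax + 1) := by
    ext t; simp only [mem_Icc, mem_Ico]; omega
  rw [hI]
  refine Finset.sum_le_sum fun t ht => ?_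
  rw [mem_Ico] at ht
  have h2 := S.GG1_nonneg (o := o) (s := t) (s' := t) (by omega)
  rw [← S.GG1_eq_TT, pow_succ]
  have h3 : (0 : ℝ) < 2 ^ (t - s) := by positivity
  nlinarith

theorem step9 {th th' : ℕ → ℝ} {o s : ℕ} (_ho : o < S.D S.smax) (hs : s ≤ S.smax)
    (_h3 : 0 < th s) (lst : Finset ℕ) (hl : ∀ l, okc th th' s l → l ∈ lst) :
    ∑ a ∈ range (S.na s), ∑ k ∈ range (S.nb s), S.E (fun x =>
      ind (R.inA th th' o s a x k) *
        (S.nuU o s a x k * ind (8 * R.m o s a x k < S.nuU o s a x k))) ≤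
    lst.card * (2 * (1 + 2 * S.GG1 o s s)) := by
  have h := R.cap_le (le_refl (8 : ℝ)) o s lst
    (fun a x k => a < S.na s ∧ R.inA th th' o s a x k) (by
      rintro a x k ⟨ha, hA⟩
      have h4 := R.tight_le_m hs ha hA.2.1
      have hm := R.m_nonneg o s a x k
      obtain ⟨l, h1, h3⟩ := hA.1
      exact ⟨l, hl l h1, h3, by linarith⟩)
  have h2 := S.GG1_nonneg (o := o) (s := s) (s' := s) hs
  have h3 : (0 : ℝ) ≤ lst.card := Nat.cast_nonneg _
  have h5 : (2 : ℝ) * lst.card * (1 + S.GG1 o s s) ≤ lst.card * (2 * (1 + 2 * S.GG1 o s s)) := by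
    nlinarith
  refine le_trans ?_ h5
  rw [S.GG1_eq_TT]
  refine le_trans (le_of_eq ?_) h
  refine Finset.sum_congr rfl fun a ha => ?_
  have ha' := mem_range.1 ha
  rw [S.E_sum]
  refine Finset.sum_congr rfl fun k _ => ?_
  congr 1
  funext x
  have he : ind (R.inA th th' o s a x k) = ind (a < S.na s ∧ R.inA th th' o s a x k) :=
    ind_congr ⟨fun h => ⟨ha', h⟩, fun h => h.2⟩
  simp only [he, not_le]

end Mach

end Vale.Agent.P315.Acc
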