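import Vale.Agent.P315.H587.Cap

/-!
# P315, Part A (helper728's form): STEPS 5, 7 and the use of STEP 8
-/

open Finset

namespace Vale.Agent.P315.Acc

variable {X : Type} [Fintype X] [Nonempty X]

namespace Sys

variable (S : Sys X)

/-- The block of scale `s` is up-stable: heavy at all scales at least `s + 2`. -/
def upst (th' : ℕ → ℝ) (o s a : ℕ) (x : X) (k : ℕ) : Prop :=
  ∀ t, s + 2 ≤ t → t ≤ S.smax → 4 * th' t ≤ S.nuT o t (a / 2 ^ (t - s)) x (k / 16 ^ (t - s))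

/-- Sum over the tops of scale `s` and the blocks of scale `s`. -/
noncomputable def TT (s : ℕ) (f : ℕ → X → ℕ → ℝ) : ℝ :=
  ∑ a ∈ range (S.na s), S.E (fun x => ∑ k ∈ range (S.nb s), f a x k)

theorem TT_mono {s : ℕ} {f g : ℕ → X → ℕ → ℝ} (h : ∀ a < S.na s, ∀ x, ∀ k, f a x k ≤ g a x k) :
    S.TT s f ≤ S.TT s g :=
  Finset.sum_le_sum fun a ha => S.E_mono fun x => Finset.sum_le_sum fun k _ =>
    h a (mem_range.1 ha) x k

theorem TT_add (s : ℕ) (f g : ℕ → X → ℕ → ℝ) :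
    S.TT s (fun a x k => f a x k + g a x k) = S.TT s f + S.TT s g := by
  unfold TT
  rw [← Finset.sum_add_distrib]
  refine Finset.sum_congr rfl fun a _ => ?_
  rw [← S.E_add]
  simp only [Finset.sum_add_distrib]

theorem TT_mul_left (s : ℕ) (c : ℝ) (f : ℕ → X → ℕ → ℝ) :
    S.TT s (fun a x k => c * f a x k) = c * S.TT s f := by
  unfold TT
  rw [Finset.mul_sum]
  refine Finset.sum_congr rfl fun a _ => ?_
  rw [← S.E_mul_left]
  simp only [Finset.mul_sum]

theorem TT_nonneg {s : ℕ} {f : ℕ → X → ℕ → ℝ} (h : ∀ a < S.na s, ∀ x, ∀ k, 0 ≤ f a x k) :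
    0 ≤ S.TT s f :=
  Finset.sum_nonneg fun a ha => S.E_nonneg fun x => Finset.sum_nonneg fun k _ =>
    h a (mem_range.1 ha) x k

/-- The bound for the blocks of scale `s` that are not up-stable (STEP 8). -/
noncomputable def US (o s : ℕ) : ℝ :=
  ∑ t ∈ Icc (s + 2) S.smax, 2 ^ (t - s + 1) * (1 + S.TT t (fun a x k => S.G t a x (S.b1 o t k)))

theorem Us_le' {th' : ℕ → ℝ} {y : ℝ} (hth' : ∀ t, 0 ≤ th' t) (o s : ℕ)
    (hy : ∀ t, s + 2 ≤ t → t ≤ S.smax → 8 * th' t ≤ y) :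
    S.TT s (fun a x k => ind (y ≤ S.nuT o s a x k ∧ ¬ S.upst th' o s a x k) * S.nuT o s a x k) ≤
      S.US o s := by
  refine le_trans ?_ (S.Us_le (y := y) (c := fun t => 4 * th' t)
    (fun t => mul_nonneg (by norm_num) (hth' t)) o s (fun t h1 h2 => by
      have := hy t h1 h2; linarith))
  refine S.TT_mono fun a _ x k => ?_
  refine mul_le_mul_of_nonneg_right (ind_mono ?_) (S.nuT_nonneg o s a x k)
  rintro ⟨h1, h2⟩
  refine ⟨h1, ?_⟩
  unfold upst at h2
  push Not at h2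
  obtain ⟨t, h3, h4, h5⟩ := h2
  exact ⟨t, h3, h4, h5.le⟩

end Sys

namespace Mach

variable {S : Sys X} (R : Mach S)

/-- active in the sense of 728. -/
def act7 (th th' : ℕ → ℝ) (o s a : ℕ) (x : X) (k : ℕ) : Prop :=
  R.act (fun s => 3 / 4 * th s) (fun s => 5 / 8 * th' s) o s a x k

/-- The blocks used in (H3b): active, tight, up-stable. -/
def AA (th th' : ℕ → ℝ) (o s a : ℕ) (x : X) (k : ℕ) : Prop :=
  R.act7 th th' o s a x k ∧ R.tight o s a x k ∧ S.upst th' o s a x k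

theorem m_nonneg (o s a : ℕ) (x : X) (k : ℕ) : 0 ≤ R.m o s a x k :=
  sub_nonneg.2 (R.omAnti s a x (S.b0_le_b1 o s k))

theorem m_le {o s a : ℕ} (hs : s ≤ S.smax) (ha : a < S.na s) (x : X) (k : ℕ) :
    R.m o s a x k ≤ S.nuT o s a x k + S.G s a x (S.b0 o s k) + 2 * R.tau s := by
  have h1 := R.om_le s a x (S.b0 o s k) hs ha
  have h2 := R.le_om s a x (S.b1 o s k) hs ha
  unfold m Sys.nuT Sys.nu Sys.G
  linarith

theorem le_m {o s a : ℕ} (hs : s ≤ S.smax) (ha : a < S.na s) (x : X) (k : ℕ) :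
    S.nuT o s a x k - S.G s a x (S.b1 o s k) - 2 * R.tau s ≤ R.m o s a x k := by
  have h1 := R.om_le s a x (S.b1 o s k) hs ha
  have h2 := R.le_om s a x (S.b0 o s k) hs ha
  unfold m Sys.nuT Sys.nu Sys.G
  linarith

theorem tight_m_le {o s a : ℕ} (hs : s ≤ S.smax) (ha : a < S.na s) {x : X} {k : ℕ}
    (ht : R.tight o s a x k) : R.m o s a x k ≤ 5 / 4 * S.nuT o s a x k := by
  have h1 := R.m_le (o := o) hs ha x k
  have h2 := S.G_nonneg' ha x (S.b1 o s k)
  unfold tight at ht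
  linarith

theorem tight_le_m {o s a : ℕ} (hs : s ≤ S.smax) (ha : a < S.na s) {x : X} {k : ℕ}
    (ht : R.tight o s a x k) : 3 / 4 * S.nuT o s a x k ≤ R.m o s a x k := by
  have h1 := R.le_m (o := o) hs ha x k
  have h2 := S.G_nonneg' ha x (S.b0 o s k)
  unfold tight at ht
  linarith

theorem exists_cls {z : ℝ} (h0 : 0 < z) (h1 : z < 1) :
    ∃ l : ℕ, (1 / 2 : ℝ) ^ (l + 1) ≤ z ∧ z < (1 / 2 : ℝ) ^ l := by
  classical
  have hex : ∃ l : ℕ, (1 / 2 : ℝ) ^ (l + 1) ≤ z := by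
    obtain ⟨n, hn⟩ := exists_pow_lt_of_lt_one h0 (by norm_num : (1 / 2 : ℝ) < 1)
    refine ⟨n, le_trans ?_ hn.le⟩
    exact pow_le_pow_of_le_one (by norm_num) (by norm_num) (Nat.le_succ n)
  refine ⟨Nat.find hex, Nat.find_spec hex, ?_⟩
  rcases Nat.eq_zero_or_pos (Nat.find hex) with h | h
  · rw [h]; simpa using h1
  · have h2 := Nat.find_min hex (Nat.sub_lt h one_pos)
    have h3 : Nat.find hex - 1 + 1 = Nat.find hex := Nat.sub_add_cancel h
    have h4 := not_le.1 h2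
    have h5 : (1 / 2 : ℝ) ^ (Nat.find hex - 1 + 1) = (1 / 2 : ℝ) ^ Nat.find hex := by rw [h3]
    exact lt_of_lt_of_eq h4 h5

theorem act_of_tight {th th' : ℕ → ℝ} {o s a : ℕ} (hs : s ≤ S.smax) (ha : a < S.na s)
    (hth : 0 < th s) (hth' : th' s ≤ 1 / 2) {x : X} {k : ℕ} (ht : R.tight o s a x k)
    (h1 : th s ≤ S.nuT o s a x k) (h2 : S.nuT o s a x k ≤ th' s) : R.act7 th th' o s a x k := by
  have h3 := R.tight_m_le hs ha ht
  have h4 := R.tight_le_m hs ha ht
  obtain ⟨l, hl1, hl2⟩ := exists_cls (z := R.m o s a x k) (by linarith) (by linarith)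
  refine ⟨l, ?_, ?_, hl1, hl2⟩
  · show 3 / 4 * th s ≤ _
    linarith
  · show _ ≤ 4 * (5 / 8 * th' s)
    rw [pow_succ] at hl1
    linarith

theorem le_of_act {th th' : ℕ → ℝ} {o s a : ℕ} {x : X} {k : ℕ} (h : R.act7 th th' o s a x k) :
    3 / 8 * th s ≤ R.m o s a x k := by
  obtain ⟨l, h1, _, h3, _⟩ := h
  rw [pow_succ] at h3
  simp only at h1
  linarith

theorem lt_of_act {th th' : ℕ → ℝ} {o s a : ℕ} {x : X} {k : ℕ} (h : R.act7 th th' o s a x k) :
    R.m o s a x k < 5 / 2 * th' s := by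
  obtain ⟨l, _, h2, _, h4⟩ := h
  simp only at h2
  linarith

/-- (f) -/
theorem nuT_ge_of_AA {th th' : ℕ → ℝ} {o s a : ℕ} (hs : s ≤ S.smax) (ha : a < S.na s) {x : X}
    {k : ℕ} (h : R.act7 th th' o s a x k) (ht : R.tight o s a x k) :
    3 / 10 * th s ≤ S.nuT o s a x k := by
  have h1 := R.le_of_act h
  have h2 := R.tight_m_le hs ha ht
  linarith

/-- (f) -/
theorem nuT_lt_of_AA {th th' : ℕ → ℝ} {o s a : ℕ} (hs : s ≤ S.smax) (ha : a < S.na s) {x : X}
    {k : ℕ} (h : R.act7 th th' o s a x k) (ht : R.tight o s a x k) :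
    S.nuT o s a x k < 10 / 3 * th' s := by
  have h1 := R.lt_of_act h
  have h2 := R.tight_le_m hs ha ht
  linarith

/-- multiplicity 2: no block of `AA` of scale `s` inside a block of `AA` of scale `t ≥ s + 2`. -/
theorem AA_excl {th th' : ℕ → ℝ} (hth' : ∀ t, 0 ≤ th' t) {o s t a : ℕ} (hst : s + 2 ≤ t)
    (ht : t ≤ S.smax) {x : X} {k : ℕ} (ha : a / 2 ^ (t - s) < S.na t)
    (h1 : R.AA th th' o s a x k) (h2 : R.AA th th' o t (a / 2 ^ (t - s)) x (k / 16 ^ (t - s))) :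
    False := by
  have h3 := h1.2.2 t hst ht
  have h4 := R.nuT_lt_of_AA ht ha h2.1 h2.2.1
  have := hth' t
  linarith

/-- (d) pointwise form of STEP 5. -/
theorem rho_le_of_not_tight {th : ℕ → ℝ} {o s a : ℕ} (ha : a < S.na s)
    (htau : 1000 * R.tau s ≤ th s) {x : X} {k : ℕ}
    (ht : ¬ R.tight o s a x k) (h1 : th s ≤ S.nuT o s a x k) :
    S.rho o s a x k ≤ 6 * (S.G s a x (S.b0 o s k) + S.G s a x (S.b1 o s k)) := by
  have h2 := S.G_nonneg' ha x (S.b0 o s k)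
  have h3 := S.G_nonneg' ha x (S.b1 o s k)
  rw [S.rho_eq]
  unfold tight at ht
  push Not at ht
  linarith

/-- (e) pointwise form of STEP 7. -/
theorem m_le_of_not_tight {th th' : ℕ → ℝ} {o s a : ℕ} (hs : s ≤ S.smax) (ha : a < S.na s)
    (htau : 1000 * R.tau s ≤ th s) {x : X} {k : ℕ}
    (ht : ¬ R.tight o s a x k) (h1 : R.act7 th th' o s a x k) :
    R.m o s a x k ≤ 6 * (S.G s a x (S.b0 o s k) + S.G s a x (S.b1 o s k)) := by
  have h2 := S.G_nonneg' ha x (S.b0 o s k)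
  have h3 := S.G_nonneg' ha x (S.b1 o s k)
  have h4 := R.m_le (o := o) hs ha x k
  have h5 := R.le_of_act h1
  unfold tight at ht
  push Not at ht
  linarith

/-- **STEPS 5 + 8**: the mass of the blocks with `th s ≤ nuT ≤ th' s` (STEP 4 blocks) is the mass of the
blocks `AA` up to gains and blocks that are not up-stable. -/
theorem step58 {th th' : ℕ → ℝ} {s : ℕ} (hs : s ≤ S.smax)
    (htau : 1000 * R.tau s ≤ th s) (hth : 0 < th s) (hth' : th' s ≤ 1 / 2)
    (hth'0 : ∀ t, 0 ≤ th' t)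
    (hP1 : ∀ t, s + 2 ≤ t → t ≤ S.smax → 80 * th' t ≤ 3 * th s) (o : ℕ) :
    S.TT s (fun a x k => ind (th s ≤ S.nuT o s a x k ∧ S.nuT o s a x k ≤ th' s) *
      (S.rho o s a x k + S.G s a x (S.b1 o s k))) ≤
    S.TT s (fun a x k => ind (R.AA th th' o s a x k) * S.rho o s a x k) +
      6 * S.TT s (fun a x k => S.G s a x (S.b0 o s k)) +
      7 * S.TT s (fun a x k => S.G s a x (S.b1 o s k)) + 5 / 4 * S.US o s := by
  have hU := S.Us_le' (y := 3 / 10 * th s) hth'0 o s (fun t h1 h2 => by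
    have := hP1 t h1 h2; linarith)
  have h1 : S.TT s (fun a x k => ind (th s ≤ S.nuT o s a x k ∧ S.nuT o s a x k ≤ th' s) *
      (S.rho o s a x k + S.G s a x (S.b1 o s k))) ≤
      S.TT s (fun a x k => ((ind (R.AA th th' o s a x k) * S.rho o s a x k +
      6 * S.G s a x (S.b0 o s k)) + 7 * S.G s a x (S.b1 o s k)) + 5 / 4 *
        (ind (3 / 10 * th s ≤ S.nuT o s a x k ∧ ¬ S.upst th' o s a x k) * S.nuT o s a x k)) := by
    refine S.TT_mono fun a ha x k => ?_
    have hG0 := S.G_nonneg' ha x (S.b0 o s k)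
    have hG1 := S.G_nonneg' ha x (S.b1 o s k)
    have hnu := S.nuT_nonneg o s a x k
    have hrho := S.rho_nonneg o s a x k
    have hr := S.rho_eq o s a x k
    have hA : 0 ≤ ind (R.AA th th' o s a x k) * S.rho o s a x k :=
      mul_nonneg (ind_nonneg _) hrho
    have hB : 0 ≤ ind (3 / 10 * th s ≤ S.nuT o s a x k ∧ ¬ S.upst th' o s a x k) *
      S.nuT o s a x k := mul_nonneg (ind_nonneg _) hnu
    by_cases hc : th s ≤ S.nuT o s a x k ∧ S.nuT o s a x k ≤ th' s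
    · rw [ind_true hc, one_mul]
      by_cases ht : R.tight o s a x k
      · have hact := R.act_of_tight hs ha hth hth' ht hc.1 hc.2
        by_cases hu : S.upst th' o s a x k
        · have hAA : R.AA th th' o s a x k := ⟨hact, ht, hu⟩
          rw [ind_true hAA]
          linarith
        · rw [ind_true (⟨by linarith [hc.1], hu⟩ :
            3 / 10 * th s ≤ S.nuT o s a x k ∧ ¬ S.upst th' o s a x k)]
          linarith
      · have := R.rho_le_of_not_tight ha htau ht hc.1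
        linarith
    · rw [ind_false hc, zero_mul]
      positivity
  refine h1.trans ?_
  rw [S.TT_add, S.TT_add, S.TT_add, S.TT_mul_left, S.TT_mul_left, S.TT_mul_left]
  linarith

/-- **STEPS 7 + 8**: the charges of the active blocks outside `AA`. -/
theorem step78 {th th' : ℕ → ℝ} {s : ℕ} (hs : s ≤ S.smax)
    (htau : 1000 * R.tau s ≤ th s) (hth'0 : ∀ t, 0 ≤ th' t)
    (hP1 : ∀ t, s + 2 ≤ t → t ≤ S.smax → 80 * th' t ≤ 3 * th s) (o : ℕ) :
    S.TT s (fun a x k => ind (R.act7 th th' o s a x k ∧ ¬ R.AA th th' o s a x k) *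
      R.m o s a x k) ≤
      6 * S.TT s (fun a x k => S.G s a x (S.b0 o s k)) +
      6 * S.TT s (fun a x k => S.G s a x (S.b1 o s k)) + 5 / 4 * S.US o s := by
  have hU := S.Us_le' (y := 3 / 10 * th s) hth'0 o s (fun t h1 h2 => by
    have := hP1 t h1 h2; linarith)
  have h1 : S.TT s (fun a x k => ind (R.act7 th th' o s a x k ∧ ¬ R.AA th th' o s a x k) *
      R.m o s a x k) ≤
      S.TT s (fun a x k => (6 * S.G s a x (S.b0 o s k) + 6 * S.G s a x (S.b1 o s k)) + 5 / 4 *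
        (ind (3 / 10 * th s ≤ S.nuT o s a x k ∧ ¬ S.upst th' o s a x k) * S.nuT o s a x k)) := by
    refine S.TT_mono fun a ha x k => ?_
    have hG0 := S.G_nonneg' ha x (S.b0 o s k)
    have hG1 := S.G_nonneg' ha x (S.b1 o s k)
    have hnu := S.nuT_nonneg o s a x k
    have hB : 0 ≤ ind (3 / 10 * th s ≤ S.nuT o s a x k ∧ ¬ S.upst th' o s a x k) *
      S.nuT o s a x k := mul_nonneg (ind_nonneg _) hnu
    by_cases hc : R.act7 th th' o s a x k ∧ ¬ R.AA th th' o s a x k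
    · rw [ind_true hc, one_mul]
      by_cases ht : R.tight o s a x k
      · have hu : ¬ S.upst th' o s a x k := fun hu => hc.2 ⟨hc.1, ht, hu⟩
        have h3 := R.nuT_ge_of_AA hs ha hc.1 ht
        have h4 := R.tight_m_le hs ha ht
        rw [ind_true (⟨h3, hu⟩ :
            3 / 10 * th s ≤ S.nuT o s a x k ∧ ¬ S.upst th' o s a x k)]
        linarith
      · have := R.m_le_of_not_tight hs ha htau ht hc.1
        linarith
    · rw [ind_false hc, zero_mul]
      positivity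
  refine h1.trans ?_
  rw [S.TT_add, S.TT_add, S.TT_mul_left, S.TT_mul_left, S.TT_mul_left]
  linarith

/-- **STEP 9** for the blocks `AA`. -/
theorem step9_AA {C7 : ℝ} (hC7 : 8 ≤ C7) {th th' : ℕ → ℝ} {s : ℕ} (hs : s ≤ S.smax) (o : ℕ)
    (Ls : Finset ℕ) (hLs : ∀ l : ℕ, 3 / 4 * th s ≤ (1 / 2 : ℝ) ^ l →
      (1 / 2 : ℝ) ^ l ≤ 5 / 2 * th' s → l ∈ Ls) :
    S.TT s (fun a x k => ind (R.AA th th' o s a x k) *
        (S.nuU o s a x k * ind (¬ S.nuU o s a x k ≤ C7 * R.m o s a x k))) ≤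
      2 * Ls.card * (1 + S.TT s (fun a x k => S.G s a x (S.b1 o s k))) := by
  have h := R.cap_le hC7 o s Ls
    (fun a x k => a < S.na s ∧ R.AA th th' o s a x k) (by
      rintro a x k ⟨ha, hA⟩
      have h4 := R.tight_le_m hs ha hA.2.1
      have hm := R.m_nonneg o s a x k
      obtain ⟨l, h1, h2, h3⟩ := hA.1
      refine ⟨l, hLs l h1 (by simp only at h2; linarith), h3, ?_⟩
      linarith)
  refine le_trans (le_of_eq ?_) h
  unfold Sys.TT
  refine Finset.sum_congr rfl fun a ha => ?_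
  have ha' := mem_range.1 ha
  congr 1
  funext x
  refine Finset.sum_congr rfl fun k _ => ?_
  have he : ind (R.AA th th' o s a x k) = ind (a < S.na s ∧ R.AA th th' o s a x k) :=
    ind_congr ⟨fun h => ⟨ha', h⟩, fun h => h.2⟩
  simp only [he]

end Mach

end Vale.Agent.P315.Acc
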