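import Vale.Agent.P315.H587.Tight

/-!
# P315, Part A: STEPS 5, 7, 8, 9 for an arbitrary predicate `act` (union form of helper165)
-/

open Finset

namespace Vale.Agent.P315.Acc

variable {X : Type} [Fintype X] [Nonempty X]

namespace Mach

variable {S : Sys X} (R : Mach S)

/-- The blocks used in (H3b): active, tight, up-stable. -/
def AAu (act : ℕ → ℕ → X → ℕ → Prop) (c : ℕ → ℝ) (o s a : ℕ) (x : X) (k : ℕ) : Prop :=
  act s a x k ∧ R.tight o s a x k ∧ S.upst (fun t => 5 / 4 * c t) o s a x k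

/-- A block of `AAu` has top mass at most `4 c`. -/
theorem AAu_nuT_le {act : ℕ → ℕ → X → ℕ → Prop} {c : ℕ → ℝ} {o s a : ℕ} (hs : s ≤ S.smax)
    (ha : a < S.na s) {x : X} {k : ℕ}
    (act2 : act s a x k → R.m o s a x k ≤ 3 * c s)
    (h : R.AAu act c o s a x k) : S.nuT o s a x k ≤ 4 * c s := by
  have h1 := act2 h.1
  have h2 := R.tight_le_m hs ha h.2.1
  linarith

/-- a block of `AAu` two scales up excludes the block below. -/
theorem AAu_excl {act : ℕ → ℕ → X → ℕ → Prop} {c : ℕ → ℝ} {o s t a : ℕ} (hst : s + 2 ≤ t)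
    (ht : t ≤ S.smax) {x : X} {k : ℕ} (ha : a / 2 ^ (t - s) < S.na t) (hc : 0 < c t)
    (act2 : act t (a / 2 ^ (t - s)) x (k / 16 ^ (t - s)) →
      R.m o t (a / 2 ^ (t - s)) x (k / 16 ^ (t - s)) ≤ 3 * c t)
    (h1 : R.AAu act c o s a x k)
    (h2 : R.AAu act c o t (a / 2 ^ (t - s)) x (k / 16 ^ (t - s))) : False := by
  have h3 := h1.2.2 t hst ht
  have h4 := R.AAu_nuT_le ht ha act2 h2
  simp only at h3
  linarith

/-- **STEPS 5 + 8** in union form. -/
theorem step58u {act : ℕ → ℕ → X → ℕ → Prop} {th th' c : ℕ → ℝ} {s : ℕ} (hs : s ≤ S.smax) (o : ℕ)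
    (act1 : ∀ a x k, a < S.na s → k < S.nb s → 3 / 4 * th s ≤ R.m o s a x k →
      R.m o s a x k ≤ 5 / 4 * th' s → act s a x k)
    (htau : 1000 * R.tau s ≤ th s) (hc0 : ∀ t, 0 ≤ c t)
    (hP1 : ∀ t, s + 2 ≤ t → t ≤ S.smax → 100 * c t ≤ 3 * th s) :
    S.TT s (fun a x k => ind (th s ≤ S.nuT o s a x k ∧ S.nuT o s a x k ≤ th' s) *
      (S.rho o s a x k + S.G s a x (S.b1 o s k))) ≤
    S.TT s (fun a x k => ind (R.AAu act c o s a x k) * S.rho o s a x k) +
      6 * S.TT s (fun a x k => S.G s a x (S.b0 o s k)) +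
      7 * S.TT s (fun a x k => S.G s a x (S.b1 o s k)) + 5 / 4 * S.US o s := by
  have hU := S.Us_le' (th' := fun t => 5 / 4 * c t) (y := 3 / 10 * th s)
    (fun t => mul_nonneg (by norm_num) (hc0 t)) o s (fun t h1 h2 => by
    have := hP1 t h1 h2; linarith)
  have h1 : S.TT s (fun a x k => ind (th s ≤ S.nuT o s a x k ∧ S.nuT o s a x k ≤ th' s) *
      (S.rho o s a x k + S.G s a x (S.b1 o s k))) ≤
      S.TT s (fun a x k => ((ind (R.AAu act c o s a x k) * S.rho o s a x k +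
      6 * S.G s a x (S.b0 o s k)) + 7 * S.G s a x (S.b1 o s k)) + 5 / 4 *
        (ind (3 / 10 * th s ≤ S.nuT o s a x k ∧ ¬ S.upst (fun t => 5 / 4 * c t) o s a x k) * S.nuT o s a x k)) := by
    unfold Sys.TT
    refine Finset.sum_le_sum fun a ha => S.E_mono fun x => Finset.sum_le_sum fun k hk => ?_
    have ha' := mem_range.1 ha
    have hk' := mem_range.1 hk
    have hG0 := S.G_nonneg' ha' x (S.b0 o s k)
    have hG1 := S.G_nonneg' ha' x (S.b1 o s k)
    have hnu := S.nuT_nonneg o s a x k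
    have hrho := S.rho_nonneg o s a x k
    have hr := S.rho_eq o s a x k
    have hA : 0 ≤ ind (R.AAu act c o s a x k) * S.rho o s a x k :=
      mul_nonneg (ind_nonneg _) hrho
    have hB : 0 ≤ ind (3 / 10 * th s ≤ S.nuT o s a x k ∧ ¬ S.upst (fun t => 5 / 4 * c t) o s a x k) *
      S.nuT o s a x k := mul_nonneg (ind_nonneg _) hnu
    beta_reduce
    by_cases hc : th s ≤ S.nuT o s a x k ∧ S.nuT o s a x k ≤ th' s
    · rw [ind_true hc, one_mul]
      by_cases ht : R.tight o s a x k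
      · have h3 := R.tight_m_le hs ha' ht
        have h4 := R.tight_le_m hs ha' ht
        have hact := act1 a x k ha' hk' (by linarith [hc.1]) (by linarith [hc.2])
        by_cases hu : S.upst (fun t => 5 / 4 * c t) o s a x k
        · have hAA : R.AAu act c o s a x k := ⟨hact, ht, hu⟩
          rw [ind_true hAA]
          linarith
        · rw [ind_true (⟨by linarith [hc.1], hu⟩ :
            3 / 10 * th s ≤ S.nuT o s a x k ∧ ¬ S.upst (fun t => 5 / 4 * c t) o s a x k)]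
          linarith
      · have := R.rho_le_of_not_tight ha' htau ht hc.1
        linarith
    · rw [ind_false hc, zero_mul]
      positivity
  refine h1.trans ?_
  rw [S.TT_add, S.TT_add, S.TT_add, S.TT_mul_left, S.TT_mul_left, S.TT_mul_left]
  linarith

/-- **STEPS 7 + 8** in union form: the charges of the active blocks outside `AAu`. -/
theorem step78u {act : ℕ → ℕ → X → ℕ → Prop} {th c : ℕ → ℝ} {s : ℕ} (hs : s ≤ S.smax) (o : ℕ)
    (act2 : ∀ a x k, a < S.na s → act s a x k → 3 / 8 * th s ≤ R.m o s a x k)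
    (htau : 1000 * R.tau s ≤ th s) (hc0 : ∀ t, 0 ≤ c t)
    (hP1 : ∀ t, s + 2 ≤ t → t ≤ S.smax → 100 * c t ≤ 3 * th s) :
    S.TT s (fun a x k => ind (act s a x k ∧ ¬ R.AAu act c o s a x k) *
      R.m o s a x k) ≤
      6 * S.TT s (fun a x k => S.G s a x (S.b0 o s k)) +
      6 * S.TT s (fun a x k => S.G s a x (S.b1 o s k)) + 5 / 4 * S.US o s := by
  have hU := S.Us_le' (th' := fun t => 5 / 4 * c t) (y := 3 / 10 * th s)
    (fun t => mul_nonneg (by norm_num) (hc0 t)) o s (fun t h1 h2 => by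
    have := hP1 t h1 h2; linarith)
  have h1 : S.TT s (fun a x k => ind (act s a x k ∧ ¬ R.AAu act c o s a x k) *
      R.m o s a x k) ≤
      S.TT s (fun a x k => (6 * S.G s a x (S.b0 o s k) + 6 * S.G s a x (S.b1 o s k)) + 5 / 4 *
        (ind (3 / 10 * th s ≤ S.nuT o s a x k ∧ ¬ S.upst (fun t => 5 / 4 * c t) o s a x k) * S.nuT o s a x k)) := by
    refine S.TT_mono fun a ha x k => ?_
    have hG0 := S.G_nonneg' ha x (S.b0 o s k)
    have hG1 := S.G_nonneg' ha x (S.b1 o s k)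
    have hnu := S.nuT_nonneg o s a x k
    have hB : 0 ≤ ind (3 / 10 * th s ≤ S.nuT o s a x k ∧ ¬ S.upst (fun t => 5 / 4 * c t) o s a x k) *
      S.nuT o s a x k := mul_nonneg (ind_nonneg _) hnu
    by_cases hc : act s a x k ∧ ¬ R.AAu act c o s a x k
    · rw [ind_true hc, one_mul]
      have h5 := act2 a x k ha hc.1
      by_cases ht : R.tight o s a x k
      · have hu : ¬ S.upst (fun t => 5 / 4 * c t) o s a x k := fun hu => hc.2 ⟨hc.1, ht, hu⟩
        have h4 := R.tight_m_le hs ha ht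
        rw [ind_true (⟨by linarith, hu⟩ :
            3 / 10 * th s ≤ S.nuT o s a x k ∧ ¬ S.upst (fun t => 5 / 4 * c t) o s a x k)]
        linarith
      · have h4 := R.m_le (o := o) hs ha x k
        unfold tight at ht
        push Not at ht
        linarith
    · rw [ind_false hc, zero_mul]
      positivity
  refine h1.trans ?_
  rw [S.TT_add, S.TT_add, S.TT_mul_left, S.TT_mul_left, S.TT_mul_left]
  linarith

/-- the class of a block with `3/8 th ≤ m ≤ 3 c`, where `c < 1/3`. -/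
theorem exists_cls' {z lo hi : ℝ} (h0 : 0 < lo) (h1 : lo ≤ z) (h2 : z ≤ hi) (h3 : z < 1) :
    ∃ l : ℕ, ((1 / 2 : ℝ) ^ (l + 1) ≤ z ∧ z < (1 / 2 : ℝ) ^ l) ∧ lo ≤ (1 / 2 : ℝ) ^ l ∧
      (1 / 2 : ℝ) ^ l ≤ 2 * hi := by
  obtain ⟨l, hl1, hl2⟩ := exists_cls (lt_of_lt_of_le h0 h1) h3
  refine ⟨l, ⟨hl1, hl2⟩, h1.trans hl2.le, ?_⟩
  rw [pow_succ] at hl1
  linarith

/-- **STEP 9** in union form. -/
theorem step9u {act : ℕ → ℕ → X → ℕ → Prop} {C7 : ℝ} (hC7 : 8 ≤ C7) {th c : ℕ → ℝ} {s : ℕ}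
    (hs : s ≤ S.smax) (o : ℕ) (hth : 0 < th s) (hc1 : 3 * c s < 1)
    (act2 : ∀ a x k, a < S.na s → act s a x k →
      3 / 8 * th s ≤ R.m o s a x k ∧ R.m o s a x k ≤ 3 * c s)
    (Ls : Finset ℕ) (hLs : ∀ l : ℕ, 3 / 8 * th s ≤ (1 / 2 : ℝ) ^ l →
      (1 / 2 : ℝ) ^ l ≤ 6 * c s → l ∈ Ls) :
    S.TT s (fun a x k => ind (R.AAu act c o s a x k) *
        (S.nuU o s a x k * ind (¬ S.nuU o s a x k ≤ C7 * R.m o s a x k))) ≤
      2 * Ls.card * (1 + S.TT s (fun a x k => S.G s a x (S.b1 o s k))) := by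
  have h := R.cap_le hC7 o s Ls
    (fun a x k => a < S.na s ∧ R.AAu act c o s a x k) (by
      rintro a x k ⟨ha, hA⟩
      have h4 := R.tight_le_m hs ha hA.2.1
      have hm := R.m_nonneg o s a x k
      obtain ⟨h5, h6⟩ := act2 a x k ha hA.1
      obtain ⟨l, h1, h2, h3⟩ := exists_cls' (lo := 3 / 8 * th s) (hi := 3 * c s)
        (by linarith) h5 h6 (lt_of_le_of_lt h6 hc1)
      exact ⟨l, hLs l h2 (by linarith), h1, by linarith⟩)
  refine le_trans (le_of_eq ?_) h
  unfold Sys.TT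
  refine Finset.sum_congr rfl fun a ha => ?_
  have ha' := mem_range.1 ha
  congr 1
  funext x
  refine Finset.sum_congr rfl fun k _ => ?_
  have he : ind (R.AAu act c o s a x k) = ind (a < S.na s ∧ R.AAu act c o s a x k) :=
    ind_congr ⟨fun h => ⟨ha', h⟩, fun h => h.2⟩
  simp only [he]

end Mach

end Vale.Agent.P315.Acc
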