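import Vale.Agent.P315.H587.Blow

/-!
# P315, Part A (helper728's form), STEP 8: blocks that are not up-stable
-/

open Finset

namespace Vale.Agent.P315.Acc

variable {X : Type} [Fintype X] [Nonempty X]

theorem sum_range_mul' {M : Type} [AddCommMonoid M] (A r : ℕ) (f : ℕ → M) :
    ∑ a ∈ range (A * r), f a = ∑ a ∈ range A, ∑ i ∈ range r, f (a * r + i) := by
  induction A with
  | zero => simp
  | succ A ih =>
    rw [Nat.succ_mul, Finset.sum_range_add, ih, Finset.sum_range_succ]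

namespace Sys

variable (S : Sys X)

theorem na_mul' {s t : ℕ} (hst : s ≤ t) (ht : t ≤ S.smax) : S.na s = S.na t * 2 ^ (t - s) := by
  have h1 := S.na_mul ht
  have h2 := S.na_mul (hst.trans ht)
  have h3 : (2 : ℕ) ^ t = 2 ^ (t - s) * 2 ^ s := by rw [← pow_add]; congr 1; omega
  have h4 : S.na s * 2 ^ s = (S.na t * 2 ^ (t - s)) * 2 ^ s := by
    rw [h2, mul_assoc, ← h3, h1]
  exact Nat.eq_of_mul_eq_mul_right (by positivity) h4

/-- sub-blocks of a block of the larger scale add up. -/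
theorem sum_sub (j : ℕ) (x : X) (o : ℕ) {s t : ℕ} (hst : s ≤ t) (k' : ℕ) :
    ∑ i ∈ range (16 ^ (t - s)), S.nu j x (S.b0 o s (k' * 16 ^ (t - s) + i))
      (S.b1 o s (k' * 16 ^ (t - s) + i)) = S.nu j x (S.b0 o t k') (S.b1 o t k') := by
  have hD := S.D_mul hst
  have h1 : ∀ N : ℕ, ∑ i ∈ range N, S.nu j x (S.b0 o s (k' * 16 ^ (t - s) + i))
      (S.b1 o s (k' * 16 ^ (t - s) + i)) =
      S.nu j x (S.b0 o s (k' * 16 ^ (t - s))) (S.b0 o s (k' * 16 ^ (t - s) + N)) := by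
    intro N
    induction N with
    | zero => simp [nu]
    | succ N ih =>
      rw [Finset.sum_range_succ, ih, ← b0_succ]
      unfold nu
      rw [← add_assoc]; ring
  rw [h1]
  have e1 : S.b0 o s (k' * 16 ^ (t - s)) = S.b0 o t k' := by
    unfold b0; rw [hD]; ring
  have e2 : S.b0 o s (k' * 16 ^ (t - s) + 16 ^ (t - s)) = S.b1 o t k' := by
    unfold b0 b1; rw [hD]; ring
  rw [e1, e2]

/-- the blocks of scale `s` of mass at least `y` inside blocks of scale `t` in which the top of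
scale `t` has mass at most `c ≤ y / 2`. -/
theorem Ust_le {c y : ℝ} (hc : 0 ≤ c) (hy : 2 * c ≤ y) (o : ℕ) {s t : ℕ} (hst : s ≤ t)
    (ht : t ≤ S.smax) :
    ∑ a ∈ range (S.na s), S.E (fun x => ∑ k ∈ range (S.nb s),
      ind (y ≤ S.nuT o s a x k ∧ S.nuT o t (a / 2 ^ (t - s)) x (k / 16 ^ (t - s)) ≤ c) *
        S.nuT o s a x k) ≤
      2 ^ (t - s + 1) * (1 + ∑ a ∈ range (S.na t), S.E (fun x => ∑ k ∈ range (S.nb t),
        S.G t a x (S.b1 o t k))) := by
  rw [S.na_mul' hst ht, sum_range_mul', Finset.sum_comm]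
  have hp : 0 < 2 ^ (t - s) := by positivity
  have hr : 0 < 16 ^ (t - s) := by positivity
  have h2t : (2 : ℕ) ^ t = 2 ^ (t - s) * 2 ^ s := by rw [← pow_add]; congr 1; omega
  have key : ∀ i ∈ range (2 ^ (t - s)),
      ∑ a' ∈ range (S.na t), S.E (fun x => ∑ k ∈ range (S.nb s),
        ind (y ≤ S.nuT o s (a' * 2 ^ (t - s) + i) x k ∧
          S.nuT o t ((a' * 2 ^ (t - s) + i) / 2 ^ (t - s)) x (k / 16 ^ (t - s)) ≤ c) *
          S.nuT o s (a' * 2 ^ (t - s) + i) x k) ≤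
      2 * (1 + ∑ a ∈ range (S.na t), S.E (fun x => ∑ k ∈ range (S.nb t),
        S.G t a x (S.b1 o t k))) := by
    intro i hi
    have hi' := mem_range.1 hi
    have hk0 : 2 ^ t - (i + 1) * 2 ^ s ≤ 2 ^ t := Nat.sub_le _ _
    have hle : (i + 1) * 2 ^ s ≤ 2 ^ t := by
      rw [h2t]; exact Nat.mul_le_mul_right _ hi'
    have hb := S.blowup hc o t (2 ^ t - (i + 1) * 2 ^ s) hk0
    refine le_trans ?_ (mul_le_mul_of_nonneg_left hb (by norm_num : (0 : ℝ) ≤ 2))
    rw [Finset.mul_sum]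
    refine Finset.sum_le_sum fun a' ha' => ?_
    rw [← S.E_mul_left]
    refine S.E_mono fun x => ?_
    rw [S.nb_mul hst ht, sum_range_mul', Finset.mul_sum]
    refine Finset.sum_le_sum fun k' hk' => ?_
    have hdiv : (a' * 2 ^ (t - s) + i) / 2 ^ (t - s) = a' := by
      rw [Nat.mul_comm, Nat.mul_add_div hp, Nat.div_eq_of_lt hi', Nat.add_zero]
    have hlev : (a' * 2 ^ (t - s) + i + 1) * 2 ^ s = (a' + 1) * 2 ^ t - (2 ^ t - (i + 1) * 2 ^ s) := by
      have e1 : (a' * 2 ^ (t - s) + i + 1) * 2 ^ s = a' * 2 ^ t + (i + 1) * 2 ^ s := by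
        rw [h2t]; ring
      have e2 : (a' + 1) * 2 ^ t = a' * 2 ^ t + 2 ^ t := by ring
      omega
    have hsub := S.sum_sub ((a' + 1) * 2 ^ t - (2 ^ t - (i + 1) * 2 ^ s)) x o hst k'
    have hterm : ∀ i' ∈ range (16 ^ (t - s)),
        ind (y ≤ S.nuT o s (a' * 2 ^ (t - s) + i) x (k' * 16 ^ (t - s) + i') ∧
          S.nuT o t ((a' * 2 ^ (t - s) + i) / 2 ^ (t - s)) x
            ((k' * 16 ^ (t - s) + i') / 16 ^ (t - s)) ≤ c) *
          S.nuT o s (a' * 2 ^ (t - s) + i) x (k' * 16 ^ (t - s) + i')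
        = ind (S.nuT o t a' x k' ≤ c) *
          (ind (y ≤ S.nuT o s (a' * 2 ^ (t - s) + i) x (k' * 16 ^ (t - s) + i')) *
          S.nuT o s (a' * 2 ^ (t - s) + i) x (k' * 16 ^ (t - s) + i')) := by
      intro i' hi''
      have hdiv' : (k' * 16 ^ (t - s) + i') / 16 ^ (t - s) = k' := by
        rw [Nat.mul_comm, Nat.mul_add_div hr, Nat.div_eq_of_lt (mem_range.1 hi''), Nat.add_zero]
      rw [hdiv, hdiv', ind_and]; ring
    rw [Finset.sum_congr rfl hterm, ← Finset.mul_sum, ← mul_assoc, mul_comm (2 : ℝ), mul_assoc]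
    refine mul_le_mul_of_nonneg_left ?_ (ind_nonneg _)
    set l := (a' + 1) * 2 ^ t - (2 ^ t - (i + 1) * 2 ^ s) with hl
    have hnuT : ∀ i', S.nuT o s (a' * 2 ^ (t - s) + i) x (k' * 16 ^ (t - s) + i')
        = S.nu l x (S.b0 o s (k' * 16 ^ (t - s) + i')) (S.b1 o s (k' * 16 ^ (t - s) + i')) := by
      intro i'
      unfold nuT
      rw [hlev]
    by_cases hex : ∃ i' ∈ range (16 ^ (t - s)),
        y ≤ S.nuT o s (a' * 2 ^ (t - s) + i) x (k' * 16 ^ (t - s) + i')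
    · obtain ⟨i0, hi0, hy0⟩ := hex
      have h1 : ∑ i' ∈ range (16 ^ (t - s)),
          ind (y ≤ S.nuT o s (a' * 2 ^ (t - s) + i) x (k' * 16 ^ (t - s) + i')) *
          S.nuT o s (a' * 2 ^ (t - s) + i) x (k' * 16 ^ (t - s) + i')
          ≤ S.nu l x (S.b0 o t k') (S.b1 o t k') := by
        rw [← hsub]
        refine Finset.sum_le_sum fun i' _ => ?_
        rw [hnuT i']
        have h0 := S.nu_nonneg l x (S.b0_le_b1 o s (k' * 16 ^ (t - s) + i'))
        calc _ ≤ 1 * S.nu l x (S.b0 o s (k' * 16 ^ (t - s) + i'))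
              (S.b1 o s (k' * 16 ^ (t - s) + i')) :=
              mul_le_mul_of_nonneg_right (ind_le_one _) h0
          _ = _ := one_mul _
      have h2 : y ≤ S.nu l x (S.b0 o t k') (S.b1 o t k') := by
        rw [← hsub]
        refine hy0.trans ?_
        rw [hnuT i0]
        exact Finset.single_le_sum (f := fun i' => S.nu l x (S.b0 o s (k' * 16 ^ (t - s) + i'))
          (S.b1 o s (k' * 16 ^ (t - s) + i'))) (fun i' _ => S.nu_nonneg l x (S.b0_le_b1 _ _ _)) hi0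
      have h3 := le_max_right 0 (S.nu l x (S.b0 o t k') (S.b1 o t k') - c)
      linarith
    · push Not at hex
      have h1 : ∑ i' ∈ range (16 ^ (t - s)),
          ind (y ≤ S.nuT o s (a' * 2 ^ (t - s) + i) x (k' * 16 ^ (t - s) + i')) *
          S.nuT o s (a' * 2 ^ (t - s) + i) x (k' * 16 ^ (t - s) + i') = 0 := by
        refine Finset.sum_eq_zero fun i' hi' => ?_
        rw [ind_false (not_le.2 (hex i' hi')), zero_mul]
      rw [h1]
      have := le_max_left 0 (S.nu l x (S.b0 o t k') (S.b1 o t k') - c)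
      linarith
  refine (Finset.sum_le_sum key).trans ?_
  rw [Finset.sum_const, card_range, nsmul_eq_mul, pow_succ]
  push_cast
  exact le_of_eq (by ring)

/-- **STEP 8** (row U_s): blocks of scale `s` of mass at least `y` that are not up-stable. -/
theorem Us_le {y : ℝ} {c : ℕ → ℝ} (hc : ∀ t, 0 ≤ c t) (o s : ℕ)
    (hy : ∀ t, s + 2 ≤ t → t ≤ S.smax → 2 * c t ≤ y) :
    ∑ a ∈ range (S.na s), S.E (fun x => ∑ k ∈ range (S.nb s),
      ind (y ≤ S.nuT o s a x k ∧ ∃ t, s + 2 ≤ t ∧ t ≤ S.smax ∧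
        S.nuT o t (a / 2 ^ (t - s)) x (k / 16 ^ (t - s)) ≤ c t) * S.nuT o s a x k) ≤
      ∑ t ∈ Icc (s + 2) S.smax, 2 ^ (t - s + 1) *
        (1 + ∑ a ∈ range (S.na t), S.E (fun x => ∑ k ∈ range (S.nb t),
          S.G t a x (S.b1 o t k))) := by
  have h1 : ∑ a ∈ range (S.na s), S.E (fun x => ∑ k ∈ range (S.nb s),
      ind (y ≤ S.nuT o s a x k ∧ ∃ t, s + 2 ≤ t ∧ t ≤ S.smax ∧
        S.nuT o t (a / 2 ^ (t - s)) x (k / 16 ^ (t - s)) ≤ c t) * S.nuT o s a x k) ≤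
      ∑ t ∈ Icc (s + 2) S.smax, ∑ a ∈ range (S.na s), S.E (fun x => ∑ k ∈ range (S.nb s),
        ind (y ≤ S.nuT o s a x k ∧ S.nuT o t (a / 2 ^ (t - s)) x (k / 16 ^ (t - s)) ≤ c t) *
          S.nuT o s a x k) := by
    rw [Finset.sum_comm]
    refine Finset.sum_le_sum fun a _ => ?_
    rw [← S.E_sum]
    refine S.E_mono fun x => ?_
    rw [Finset.sum_comm]
    refine Finset.sum_le_sum fun k _ => ?_
    rw [← Finset.sum_mul]
    refine mul_le_mul_of_nonneg_right ?_ (S.nuT_nonneg o s a x k)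
    by_cases hcon : y ≤ S.nuT o s a x k ∧ ∃ t, s + 2 ≤ t ∧ t ≤ S.smax ∧
        S.nuT o t (a / 2 ^ (t - s)) x (k / 16 ^ (t - s)) ≤ c t
    · rw [ind_true hcon]
      obtain ⟨h2, t, h3, h4, h5⟩ := hcon
      have h6 : ind (y ≤ S.nuT o s a x k ∧
          S.nuT o t (a / 2 ^ (t - s)) x (k / 16 ^ (t - s)) ≤ c t) = 1 := ind_true ⟨h2, h5⟩
      calc (1 : ℝ) = ind (y ≤ S.nuT o s a x k ∧
          S.nuT o t (a / 2 ^ (t - s)) x (k / 16 ^ (t - s)) ≤ c t) := h6.symm
        _ ≤ _ := Finset.single_le_sum (f := fun t => ind (y ≤ S.nuT o s a x k ∧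
          S.nuT o t (a / 2 ^ (t - s)) x (k / 16 ^ (t - s)) ≤ c t))
          (fun _ _ => ind_nonneg _) (mem_Icc.2 ⟨h3, h4⟩)
    · rw [ind_false hcon]
      exact Finset.sum_nonneg fun _ _ => ind_nonneg _
  refine h1.trans (Finset.sum_le_sum fun t ht => ?_)
  have ht' := mem_Icc.1 ht
  exact S.Ust_le (hc t) (hy t ht'.1 ht'.2) o (by omega) ht'.2

end Sys

end Vale.Agent.P315.Acc
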